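import Mathlib.Computability.TuringMachine.Computable
import Mathlib.Data.Nat.Bits
import Mathlib.Data.Fintype.Pi
import Mathlib.Algebra.BigOperators.Fin
import Mathlib.Data.Real.Basic

namespace Vale.Agent.P328

/-- An instance: dimensions `m, n ≥ 1` and margins with equal totals. -/
structure Inst where
  m : ℕ
  n : ℕ
  r : Fin m → ℕ
  c : Fin n → ℕ
  hm : 1 ≤ m
  hn : 1 ≤ n
  hsum : ∑ i, r i = ∑ j, c j

/-- The contingency tables with the given margins (an entry never exceeds its row sum). -/
def Inst.Omega (P : Inst) : Finset (Fin P.m → Fin P.n → ℕ) :=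
  (Fintype.piFinset fun i => Fintype.piFinset fun _ => Finset.range (P.r i + 1)).filter fun X =>
    (∀ i, ∑ j, X i j = P.r i) ∧ ∀ j, ∑ i, X i j = P.c j

/-- A table as the list of its rows. -/
def rows {m n : ℕ} (X : Fin m → Fin n → ℕ) : List (List ℕ) := List.ofFn fun i => List.ofFn (X i)

/-- Self-delimiting binary codes of bits, pairs, lists and naturals (in binary). -/
def encBool (b : Bool) : List Bool := if b then [true, false, false] else [false]

def encPair {α β : Type} (f : α → List Bool) (g : β → List Bool) (p : α × β) : List Bool :=
  true :: (f p.1 ++ g p.2)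

def encList {α : Type} (f : α → List Bool) (l : List α) : List Bool :=
  l.flatMap (fun a => true :: f a) ++ [false]

def encNat (n : ℕ) : List Bool := encList encBool n.bits

/-- The code of the margins and of the accuracy parameter `q` (for `ε = 1 / q`). -/
def encInst (x : Inst × ℕ) : List Bool :=
  encPair (encPair (encList encNat) (encList encNat)) encNat
    ((List.ofFn x.1.r, List.ofFn x.1.c), x.2)

/-- The probability of an event about `ρ` independent fair coin flips. -/
noncomputable def coinProb (ρ : ℕ) (E : List Bool → Prop) [DecidablePred E] : ℝ :=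
  ((Finset.univ.filter fun w : Fin ρ → Bool => E (List.ofFn w)).card : ℝ) / 2 ^ ρ

end Vale.Agent.P328
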