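import Vale.Agent.P328.Step
import Vale.Agent.P328.Defs
import Vale.Agent.Common.TreeDiv
import Vale.Agent.Common.TreeRec

/-! The sampler as a function on lists. -/

namespace Vale.Agent.P328

open Finset Function Vale.Agent.Common.TreeTM

def gt (T : List (List ℕ)) (i j : ℕ) : ℕ := (T.getD i []).getD j 0
def eqn (a b : ℕ) : Bool := !(nlt a b || nlt b a)
def ind (a b c d x : ℕ) : ℕ := bif eqn a b && eqn c d then x else 0
def md (a b : ℕ) : ℕ := a - b * (a / b)
def pw (l : List Bool) (k : ℕ) : ℕ :=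
  (idx l).foldl (fun acc i => bif nlt i k then acc + acc else acc) 1
def upd (a i i' j j' : ℕ) (T : List (List ℕ)) : List (List ℕ) :=
  bif nlt (gt T i j') a || nlt (gt T i' j) a then T else
    (idx T).map fun p => (idx (T.getD p [])).map fun q =>
      gt T p q + ind p i q j a + ind p i' q j' a - ind p i q j' a - ind p i' q j a
def mv (W : ℕ) (sb : List Bool) (x : ℕ) (T : List (List ℕ)) : List (List ℕ) :=
  bif x.bodd then T else upd (pw sb (x.div2 / W / W / W / W)) (md x.div2 W) (md (x.div2 / W) W)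
    (md (x.div2 / W / W) W) (md (x.div2 / W / W / W) W) T
def stepBit (W : ℕ) (sb : List Bool) (b : ℕ) (st : ℕ × ℕ × List (List ℕ)) (c : Bool) :
    ℕ × ℕ × List (List ℕ) :=
  bif nlt (st.1 + 1) b then (st.1 + 1, Nat.bit c st.2.1, st.2.2)
  else (0, 0, mv W sb (Nat.bit c st.2.1) st.2.2)
def pre (l : List ℕ) (i : ℕ) : ℕ := ((idx l).map fun k => bif nlt k i then l.getD k 0 else 0).sum
def ov (a b c d : ℕ) : ℕ := b - (b - d) - (a + (c - a))
def init (r c : List ℕ) : List (List ℕ) :=
  (idx r).map fun i => (idx c).map fun j => ov (pre r i) (pre r (i + 1)) (pre c j) (pre c (j + 1))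
def db (r c : List ℕ) : List Bool := (r.length + c.length + r.sum.bits.length + 1).bits

section tc
variable {α : Type} [Enc α]

@[fun_prop] theorem tc_gt {T : α → List (List ℕ)} {i j : α → ℕ} (hT : TC 0 T) (hi : TC 0 i)
    (hj : TC 0 j) : TC 0 fun a => gt (T a) (i a) (j a) := by unfold gt; fun_prop

@[fun_prop] theorem tc_eqn {f g : α → ℕ} (hf : TC 0 f) (hg : TC 0 g) :
    TC 0 fun a => eqn (f a) (g a) := by unfold eqn; fun_prop

@[fun_prop] theorem tc_ind {f g h k x : α → ℕ} (hf : TC 0 f) (hg : TC 0 g) (hh : TC 0 h)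
    (hk : TC 0 k) (hx : TC 0 x) : TC 0 fun a => ind (f a) (g a) (h a) (k a) (x a) := by
  unfold ind; fun_prop

@[fun_prop] theorem tc_md {f g : α → ℕ} (hf : TC 0 f) (hg : TC 0 g) :
    TC 0 fun a => md (f a) (g a) := by unfold md; fun_prop

@[fun_prop] theorem tc_pw {l : α → List Bool} {k : α → ℕ} (hl : TC 0 l) (hk : TC 0 k) :
    TC 0 fun a => pw (l a) (k a) := by
  refine TC.foldl_inv (f := fun a acc i => bif nlt i (k a) then acc + acc else acc) (by fun_prop)
    (by fun_prop) (by fun_prop) (S := fun a => 4 * (sz (l a) + 1) + 1)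
    (((Bd.const _ _).mul (hl.bd.add (Bd.const _ _))).add (Bd.const _ _)) (fun _ k s => s ≤ 2 ^ k)
    (fun _ => le_rfl) (fun a j s x _ h => ?_) fun a j s hj h => sz_nat_le (h.trans_lt ?_)
  · rw [pow_succ]
    cases nlt x (k a) <;> simp <;> omega
  · rw [idx, List.length_range] at hj
    exact Nat.pow_lt_pow_right (by norm_num) (Nat.lt_succ_of_le (hj.trans (length_le_sz _)))

@[fun_prop] theorem tc_upd {x i i' j j' : α → ℕ} {T : α → List (List ℕ)} (hx : TC 0 x) (hi : TC 0 i)
    (hi' : TC 0 i') (hj : TC 0 j) (hj' : TC 0 j') (hT : TC 0 T) :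
    TC 0 fun a => upd (x a) (i a) (i' a) (j a) (j' a) (T a) := by unfold upd; fun_prop

@[fun_prop] theorem tc_mv {W x : α → ℕ} {sb : α → List Bool} {T : α → List (List ℕ)} (hW : TC 0 W)
    (hs : TC 0 sb) (hx : TC 0 x) (hT : TC 0 T) : TC 0 fun a => mv (W a) (sb a) (x a) (T a) := by
  unfold mv; fun_prop

@[fun_prop] theorem tc_stepBit {W b : α → ℕ} {sb : α → List Bool} {st : α → ℕ × ℕ × List (List ℕ)}
    {c : α → Bool} (hW : TC 0 W) (hs : TC 0 sb) (hb : TC 0 b) (ht : TC 0 st) (hc : TC 0 c) :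
    TC 0 fun a => stepBit (W a) (sb a) (b a) (st a) (c a) := by unfold stepBit; fun_prop

@[fun_prop] theorem tc_pre {l : α → List ℕ} {i : α → ℕ} (hl : TC 0 l) (hi : TC 0 i) :
    TC 0 fun a => pre (l a) (i a) := by unfold pre; fun_prop

@[fun_prop] theorem tc_init {r c : α → List ℕ} (hr : TC 0 r) (hc : TC 0 c) :
    TC 0 fun a => init (r a) (c a) := by unfold init ov; fun_prop

@[fun_prop] theorem tc_db {r c : α → List ℕ} (hr : TC 0 r) (hc : TC 0 c) :
    TC 0 fun a => db (r a) (c a) :=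
  TC.bits (TC.add (TC.add (TC.add (TC.length hr) (TC.length hc)) (TC.length (TC.bits (TC.sum hr))))
    (TC.const 1))

end tc

theorem pw_eq (l : List Bool) (k : ℕ) : pw l k = 2 ^ min k l.length := by
  unfold pw idx
  induction l.length with
  | zero => simp
  | succ n ih =>
    rw [List.range_succ, List.foldl_append, ih]
    by_cases h : n < k
    · simp [nlt, h, min_eq_right h.le, pow_succ, mul_two]
    · simp [nlt, h, min_eq_left (not_lt.mp h), min_eq_left ((not_lt.mp h).trans (Nat.le_succ n))]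

theorem md_eq (a b : ℕ) : md a b = a % b := by
  have := Nat.mod_add_div a b
  unfold md
  omega

theorem ind_eq (a b c d x : ℕ) : ind a b c d x = if a = b ∧ c = d then x else 0 := by
  have : ∀ a b, eqn a b = decide (a = b) := fun a b => by
    simp only [eqn, nlt, Bool.not_or, ← decide_not, ← Bool.decide_and, decide_eq_decide]
    omega
  simp [ind, this]

theorem map_idx_ofFn {β γ : Type} {m : ℕ} (f : Fin m → β) (g : ℕ → γ) :
    (idx (List.ofFn f)).map g = List.ofFn fun i : Fin m => g i :=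
  List.ext_getElem (by simp [idx]) fun _ _ _ => by simp [idx]

variable {m n : ℕ}

def lst (X : Fin m × Fin n → ℤ) : List (List ℕ) := rows fun i j => (X (i, j)).toNat

theorem getD_lst (X : Fin m × Fin n → ℤ) (i : Fin m) :
    (lst X).getD i [] = List.ofFn fun j => (X (i, j)).toNat := by simp [lst, rows]

theorem gt_lst (X : Fin m × Fin n → ℤ) (i : Fin m) (j : Fin n) : gt (lst X) i j = (X (i, j)).toNat := by
  rw [gt, getD_lst]; simp

theorem gt_lst_pos {X : Fin m × Fin n → ℤ} {i j : ℕ} (h : 0 < gt (lst X) i j) : i < m ∧ j < n := by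
  by_cases hi : i < m
  · lift i to Fin m using hi
    rw [gt, getD_lst] at h
    refine ⟨i.2, lt_of_not_ge fun hj => ?_⟩
    rw [List.getD_eq_default _ _ (by simpa)] at h
    omega
  · rw [gt, List.getD_eq_default (lst X) _ (by simpa [lst, rows] using hi)] at h
    simp at h

theorem upd_lst {X : Fin m × Fin n → ℤ} (h0 : ∀ e, 0 ≤ X e) (s i i' j j' l : ℕ) :
    upd (2 ^ min l s) i i' j j' (lst X) = lst (mstep s (i, i', j, j', l) X) := by
  have pos : 0 < 2 ^ min l s := by positivity
  have hc : ((2 ^ min l s : ℕ) : ℤ) = 2 ^ min l s := by push_cast; rfl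
  by_cases h : i < m ∧ i' < m ∧ j < n ∧ j' < n
  · lift i to Fin m using h.1
    lift i' to Fin m using h.2.1
    lift j to Fin n using h.2.2.1
    lift j' to Fin n using h.2.2.2
    rw [mstep_fin, upd, gt_lst, gt_lst, ← hc]
    generalize 2 ^ min l s = a at *
    split_ifs with e
    · rw [show (nlt (X (i, j')).toNat a || nlt (X (i', j)).toNat a) = false by simp [nlt]; omega]
      conv_lhs => rw [Bool.cond_false, lst, rows, map_idx_ofFn, ← rows, ← lst]
      refine congrArg List.ofFn (funext fun p => ?_)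
      rw [getD_lst, map_idx_ofFn]
      refine congrArg List.ofFn (funext fun q => ?_)
      have := h0 (p, q)
      simp only [gt_lst, ind_eq, rect, ev, Pi.add_apply, Pi.smul_apply, Pi.sub_apply, Prod.mk.injEq,
        Fin.val_inj, smul_eq_mul]
      split_ifs <;> omega
    · rw [show (nlt (X (i, j')).toNat a || nlt (X (i', j)).toNat a) = true by simp [nlt]; omega]
      rfl
  · have : (nlt (gt (lst X) i j') (2 ^ min l s) || nlt (gt (lst X) i' j) (2 ^ min l s)) = true := by
      simp only [nlt, Bool.or_eq_true, decide_eq_true_eq]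
      by_contra hh
      have := gt_lst_pos (X := X) (i := i) (j := j') (by omega)
      have := gt_lst_pos (X := X) (i := i') (j := j) (by omega)
      tauto
    simp only [upd, this, mstep, h, dite_false, Bool.cond_true]

theorem mv_lst {X : Fin m × Fin n → ℤ} (h0 : ∀ e, 0 ≤ X e) (W : ℕ) (sb : List Bool) (x : ℕ) :
    mv W sb x (lst X) = lst (mmv W sb.length x X) := by
  rw [mv, mmv, pw_eq, upd_lst h0, Nat.mod_two_of_bodd, Nat.div2_val]
  simp only [md_eq, dec]
  cases x.bodd <;> rfl

theorem fold_short (W : ℕ) (sb : List Bool) (b : ℕ) (u : List Bool) : ∀ cnt acc T,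
    cnt + u.length < b → (u.foldl (stepBit W sb b) (cnt, acc, T)).2.2 = T := by
  induction u with
  | nil => simp
  | cons c u ih =>
    intro cnt acc T h
    rw [List.length_cons] at h
    rw [List.foldl_cons, stepBit, show nlt (cnt + 1) b = true by simp [nlt]; omega]
    exact ih _ _ _ (by omega)

theorem fold_chunk (W : ℕ) (sb : List Bool) (b : ℕ) (u : List Bool) : ∀ cnt acc T, u ≠ [] →
    cnt + u.length = b → u.foldl (stepBit W sb b) (cnt, acc, T) = (0, 0, mv W sb (val u acc) T) := by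
  induction u with
  | nil => simp
  | cons c u ih =>
    intro cnt acc T _ h
    rw [List.length_cons] at h
    rw [List.foldl_cons, stepBit]
    by_cases e : u = []
    · subst e
      rw [show nlt (cnt + 1) b = false by simp [nlt] at *; omega]
      rfl
    · have := List.length_pos_of_ne_nil e
      rw [show nlt (cnt + 1) b = true by simp [nlt]; omega]
      exact ih _ _ _ e (by omega)

theorem run_law {r : Fin m → ℤ} {c : Fin n → ℤ} (w : ℕ) (sb : List Bool) (g : List (List ℕ) → ℝ)
    (t : ℕ) : ∀ ρ, ρ / (5 * w + 1) = t → ∀ X ∈ Tab r c,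
    bs ρ (fun v => g (v.foldl (stepBit (2 ^ w) sb (5 * w + 1)) (0, 0, lst X)).2.2) =
      2 ^ ρ * (lz (Tp (2 ^ w)) (mstep sb.length))^[t] (fun Y => g (lst Y)) X := by
  induction t with
  | zero =>
    intro ρ h X _
    rw [bs_congr ρ (g := fun _ => g (lst X)) fun u hu => by
      rw [fold_short _ _ _ _ _ _ _ (by rw [Nat.div_eq_zero_iff] at h; omega)], bs_eq]
    simp
  | succ t ih =>
    intro ρ h X hX
    obtain ⟨ρ, rfl⟩ : ∃ ρ', ρ = 5 * w + 1 + ρ' :=
      ⟨ρ - (5 * w + 1), by have := (Nat.div_pos_iff (a := ρ) (b := 5 * w + 1)).mp (by omega); omega⟩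
    rw [Nat.add_div_left _ (by omega)] at h
    rw [bs_add, bs_congr _ (g := fun u => (fun x => 2 ^ ρ * (lz (Tp (2 ^ w)) (mstep sb.length))^[t]
      (fun Y => g (lst Y)) (mmv (2 ^ w) sb.length x X)) (val u 0)) fun u hu => by
        simp only [List.foldl_append]
        rw [fold_chunk _ _ _ _ _ _ _ (by rintro rfl; simp at hu) (by omega),
          mv_lst (mem_Tab.mp hX).1, ih ρ (by omega) _ (mmv_mem _ _ _ hX)],
      bs_val fun x => 2 ^ ρ * (lz (Tp (2 ^ w)) (mstep sb.length))^[t]
        (fun Y => g (lst Y)) (mmv (2 ^ w) sb.length x X), iterate_succ_apply', show 2 ^ (5 * w + 1) = 2 * (2 ^ w) ^ 5 by ring]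
    simp only [zero_mul, zero_add, ← mul_sum]
    rw [sum_mmv (by positivity)]
    push_cast
    ring

theorem step_inv {r : Fin m → ℤ} {c : Fin n → ℤ} (W : ℕ) (sb : List Bool) (b : ℕ)
    (st : ℕ × ℕ × List (List ℕ)) (x : Bool)
    (h : st.1 ≤ b ∧ st.2.1 < 2 ^ st.1 ∧ ∃ X ∈ Tab r c, st.2.2 = lst X) :
    (stepBit W sb b st x).1 ≤ b ∧ (stepBit W sb b st x).2.1 < 2 ^ (stepBit W sb b st x).1 ∧
      ∃ X ∈ Tab r c, (stepBit W sb b st x).2.2 = lst X := by
  obtain ⟨h1, h2, X, hX, h3⟩ := h
  unfold stepBit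
  cases e : nlt (st.1 + 1) b
  · exact ⟨Nat.zero_le _, Nat.one_pos, _, mmv_mem _ _ _ hX, by rw [h3]; exact mv_lst (mem_Tab.mp hX).1 ..⟩
  · refine ⟨by simp [nlt] at e ⊢; omega, ?_, X, hX, h3⟩
    simp only [Bool.cond_true, pow_succ, Nat.bit_val]
    have := x.toNat_le
    omega

theorem pre_succ (l : List ℕ) (i : ℕ) : pre l (i + 1) = pre l i + l.getD i 0 := by
  have : ∀ i, pre l i = ∑ k ∈ range l.length, if k < i then l.getD k 0 else 0 := fun i => by
    simp only [pre, nlt, Bool.cond_decide]; rfl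
  rw [this, this]
  have e : l.getD i 0 = ∑ k ∈ range l.length, if k = i then l.getD k 0 else 0 := by
    rw [sum_ite_eq']
    split_ifs with h
    · rfl
    · exact List.getD_eq_default _ _ (by simpa using h)
  rw [e, ← sum_add_distrib]
  refine sum_congr rfl fun k _ => ?_
  split_ifs <;> omega

theorem pre_ofFn (r : Fin m → ℕ) : pre (List.ofFn r) 0 = 0 ∧ pre (List.ofFn r) m = ∑ i, r i ∧
    Monotone (pre (List.ofFn r)) ∧ ∀ i : Fin m, pre (List.ofFn r) (i + 1) = pre (List.ofFn r) i + r i := by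
  refine ⟨by simp [pre, nlt], ?_, monotone_nat_of_le_succ fun i => by rw [pre_succ]; omega,
    fun i => by simp [pre_succ]⟩
  rw [pre, map_idx_ofFn, List.sum_ofFn]
  simp [nlt]

theorem init_eq (P : Inst) : ∃ X ∈ Tab (fun i => (P.r i : ℤ)) fun j => (P.c j : ℤ),
    init (List.ofFn P.r) (List.ofFn P.c) = lst X := by
  obtain ⟨r0, r1, r2, r3⟩ := pre_ofFn P.r
  obtain ⟨c0, c1, c2, c3⟩ := pre_ofFn P.c
  have hs := P.hsum
  refine ⟨fun e => (ov (pre (List.ofFn P.r) e.1) (pre (List.ofFn P.r) (e.1 + 1))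
    (pre (List.ofFn P.c) e.2) (pre (List.ofFn P.c) (e.2 + 1)) : ℕ),
    mem_Tab.mpr ⟨fun _ => Nat.cast_nonneg _, fun i => ?_, fun j => ?_⟩, ?_⟩
  · have := sum_range_sub (fun j => (min (pre (List.ofFn P.r) (i + 1))
      (max (pre (List.ofFn P.r) i) (pre (List.ofFn P.c) j)) : ℤ)) P.n
    rw [← Fin.sum_univ_eq_sum_range] at this
    have a := r2 (Nat.succ_le_of_lt i.2)
    have b := r3 i
    refine (sum_congr rfl fun j _ => ?_).trans (this.trans (by simp only [Nat.succ_eq_add_one] at a; omega))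
    have := c3 j
    simp only [ov]
    omega
  · have := sum_range_sub (fun i => (min (pre (List.ofFn P.c) (j + 1))
      (max (pre (List.ofFn P.c) j) (pre (List.ofFn P.r) i)) : ℤ)) P.m
    rw [← Fin.sum_univ_eq_sum_range] at this
    have a := c2 (Nat.succ_le_of_lt j.2)
    have b := c3 j
    refine (sum_congr rfl fun i _ => ?_).trans (this.trans (by simp only [Nat.succ_eq_add_one] at a; omega))
    have := r3 i
    simp only [ov]
    omega
  · simp only [init, map_idx_ofFn, lst, rows, Int.toNat_natCast]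

end Vale.Agent.P328
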