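import Vale.Agent.P328.Poinc

/-! Convergence of the lazy chain, and sums over coin strings. -/

namespace Vale.Agent.P328

open Finset Function

section Chain

variable {α υ : Type}

/-- the lazy averaging operator -/
noncomputable def lz (U : Finset υ) (st : υ → α → α) (g : α → ℝ) (x : α) : ℝ :=
  (g x + mean U fun u => g (st u x)) / 2

theorem ds_of_invol {S : Finset α} {U : Finset υ} {st : υ → α → α} (fl : υ → υ)
    (h1 : ∀ u ∈ U, ∀ x ∈ S, st u x ∈ S) (h2 : ∀ u ∈ U, fl u ∈ U) (h3 : ∀ u, fl (fl u) = u)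
    (h4 : ∀ u ∈ U, ∀ x ∈ S, st u x ≠ x → st (fl u) (st u x) = x) (h : α → ℝ) :
    ∑ x ∈ S, ∑ u ∈ U, h (st u x) = U.card * ∑ x ∈ S, h x := by
  classical
  have : (U.card : ℝ) * ∑ x ∈ S, h x = ∑ p ∈ S ×ˢ U, h p.1 := by
    rw [sum_product, mul_sum]; simp
  rw [this, ← sum_product']
  set σ : α × υ → α × υ := fun p => if st p.2 p.1 = p.1 then p else (st p.2 p.1, fl p.2) with hσ
  have a : ∀ p ∈ S ×ˢ U, σ p ∈ S ×ˢ U := fun p hp => by
    rw [mem_product] at hp ⊢
    simp only [hσ]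
    split_ifs
    · exact hp
    · exact ⟨h1 _ hp.2 _ hp.1, h2 _ hp.2⟩
  have b : ∀ p ∈ S ×ˢ U, σ (σ p) = p := fun p hp => by
    rw [mem_product] at hp
    by_cases e : st p.2 p.1 = p.1
    · simp [hσ, e]
    · simp [hσ, e, h4 _ hp.2 _ hp.1 e, Ne.symm e, h3]
  refine sum_nbij' σ σ a a b b fun p _ => ?_
  simp only [hσ]
  split_ifs with e
  · rw [e]
  · rfl

variable {S : Finset α} {U : Finset υ} {st : υ → α → α}

theorem lz_step (hU : U.Nonempty)
    (ds : ∀ h : α → ℝ, ∑ x ∈ S, ∑ u ∈ U, h (st u x) = U.card * ∑ x ∈ S, h x) {C : ℝ} (hC : 0 < C)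
    (hP : ∀ g : α → ℝ, Var S g ≤ C * ∑ x ∈ S, ∑ u ∈ U, (g (st u x) - g x) ^ 2) (g : α → ℝ) :
    mean S (lz U st g) = mean S g ∧ Var S (lz U st g) ≤ (1 - 1 / (4 * C * U.card)) * Var S g := by
  have n0 : (0 : ℝ) < U.card := by exact_mod_cast hU.card_pos
  constructor
  · simp only [mean, lz, ← sum_div, sum_add_distrib, ds]
    rw [mul_div_cancel_left₀ _ n0.ne']
    ring
  refine (Var_le _ _ (mean S g)).trans (le_of_mul_le_mul_left ?_ n0)
  set θ := mean S g
  have a : ∀ x, U.card * (lz U st g x - θ) ^ 2 ≤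
      ∑ u ∈ U, (((g x - θ) ^ 2 + (g (st u x) - θ) ^ 2) / 2 - (g (st u x) - g x) ^ 2 / 4) := fun x => by
    have := mean_sq U fun u => (g x - θ + (g (st u x) - θ)) / 2
    have e : (mean U fun u => (g x - θ + (g (st u x) - θ)) / 2) = lz U st g x - θ := by
      simp only [mean, lz, ← sum_div, sum_add_distrib, sum_sub_distrib, sum_const, nsmul_eq_mul]
      field_simp
      ring
    rw [e] at this
    exact this.trans (le_of_eq (sum_congr rfl fun u _ => by ring))
  rw [mul_sum]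
  refine (sum_le_sum fun x _ => a x).trans ?_
  have d := ds fun x => (g x - θ) ^ 2
  simp only [sum_sub_distrib, ← sum_div, sum_add_distrib, sum_const, nsmul_eq_mul, ← mul_sum, d]
  have p := hP g
  rw [← div_le_iff₀' hC] at p
  have e : U.card * ((1 - 1 / (4 * C * U.card)) * Var S g) = U.card * Var S g - Var S g / C / 4 := by
    field_simp
  rw [e, Var]
  rw [Var] at p
  linarith

theorem lz_iter (hU : U.Nonempty)
    (ds : ∀ h : α → ℝ, ∑ x ∈ S, ∑ u ∈ U, h (st u x) = U.card * ∑ x ∈ S, h x) {C : ℝ} (hC : 1 ≤ C)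
    (hP : ∀ g : α → ℝ, Var S g ≤ C * ∑ x ∈ S, ∑ u ∈ U, (g (st u x) - g x) ^ 2) (g : α → ℝ)
    (hg : ∀ x ∈ S, g x ^ 2 ≤ 1) (t : ℕ) {x : α} (hx : x ∈ S) :
    ((lz U st)^[t] g x - mean S g) ^ 2 ≤ Real.exp (-(t / (4 * C * U.card))) * S.card := by
  have n0 : (1 : ℝ) ≤ U.card := by exact_mod_cast hU.card_pos
  have key : mean S ((lz U st)^[t] g) = mean S g ∧
      Var S ((lz U st)^[t] g) ≤ Real.exp (-(t / (4 * C * U.card))) * Var S g := by
    induction t with
    | zero => simp
    | succ t ih =>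
      rw [iterate_succ_apply']
      obtain ⟨a, b⟩ := lz_step hU ds (by linarith) hP ((lz U st)^[t] g)
      refine ⟨a.trans ih.1, b.trans ?_⟩
      have c := Real.add_one_le_exp (-(1 / (4 * C * U.card)))
      rw [show -(((t + 1 : ℕ) : ℝ) / (4 * C * U.card)) =
        -(1 / (4 * C * U.card)) + -(t / (4 * C * U.card)) by push_cast; ring, Real.exp_add,
        mul_assoc (Real.exp _)]
      exact mul_le_mul (by linarith) ih.2 (Var_nonneg _ _) (Real.exp_pos _).le
  rw [← key.1]
  refine (single_le_sum (f := fun x => ((lz U st)^[t] g x - mean S ((lz U st)^[t] g)) ^ 2)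
    (fun _ _ => sq_nonneg _) hx).trans (key.2.trans (mul_le_mul_of_nonneg_left
      ((Var_le S g 0).trans ?_) (Real.exp_pos _).le))
  simpa using sum_le_card_nsmul S (fun x => g x ^ 2) 1 hg

end Chain

/-- sum over all bit strings of a given length -/
def bs : ℕ → (List Bool → ℝ) → ℝ
  | 0, g => g []
  | n + 1, g => bs n (fun w => g (false :: w)) + bs n fun w => g (true :: w)

theorem bs_eq (n : ℕ) : ∀ g : List Bool → ℝ, bs n g = ∑ w : Fin n → Bool, g (List.ofFn w) := by
  induction n with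
  | zero => intro g; simp [bs]
  | succ n ih =>
    intro g
    rw [bs, ih, ih, ← (Fin.consEquiv fun _ => Bool).sum_comp, Fintype.sum_prod_type,
      Fintype.sum_bool, add_comm]
    simp [Fin.consEquiv]

theorem bs_congr (n : ℕ) {f g : List Bool → ℝ} (h : ∀ u, u.length = n → f u = g u) :
    bs n f = bs n g := by
  rw [bs_eq, bs_eq]
  exact sum_congr rfl fun w _ => h _ (by simp)

theorem bs_add (a b : ℕ) : ∀ g : List Bool → ℝ,
    bs (a + b) g = bs a fun u => bs b fun v => g (u ++ v) := by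
  induction a with
  | zero => intro g; simp [bs]
  | succ a ih => intro g; rw [Nat.succ_add, bs, bs, ih, ih]; rfl

def val (u : List Bool) (acc : ℕ) : ℕ := u.foldl (fun a c => Nat.bit c a) acc

theorem bs_val (φ : ℕ → ℝ) (a : ℕ) : ∀ acc,
    bs a (fun u => φ (val u acc)) = ∑ x ∈ range (2 ^ a), φ (acc * 2 ^ a + x) := by
  induction a with
  | zero => intro acc; simp [bs, val]
  | succ a ih =>
    intro acc
    have a0 := ih (Nat.bit false acc)
    have a1 := ih (Nat.bit true acc)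
    rw [bs, pow_succ, mul_two (2 ^ a), sum_range_add]
    refine congrArg₂ (· + ·) (a0.trans (sum_congr rfl fun x _ => ?_))
      (a1.trans (sum_congr rfl fun x _ => ?_)) <;> congr 1 <;> simp [Nat.bit_val] <;> ring

theorem sum_range_mul' (W M : ℕ) (φ : ℕ → ℕ → ℝ) :
    ∑ x ∈ range (W * M), φ (x % W) (x / W) = ∑ a ∈ range W, ∑ y ∈ range M, φ a y := by
  rw [← sum_product']
  refine sum_nbij' (fun x => (x % W, x / W)) (fun p => p.1 + W * p.2) ?_ ?_ ?_ ?_ fun _ _ => rfl
  · intro x hx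
    rw [mem_range] at hx
    have : 0 < W := Nat.pos_of_ne_zero (by rintro rfl; simp at hx)
    exact mem_product.mpr ⟨mem_range.mpr (Nat.mod_lt _ this),
      mem_range.mpr (Nat.div_lt_of_lt_mul hx)⟩
  · intro p hp
    simp only [mem_product, mem_range] at hp ⊢
    nlinarith [Nat.mul_le_mul_left W (Nat.succ_le_of_lt hp.2)]
  · intro x _
    exact Nat.mod_add_div x W
  · intro p hp
    simp only [mem_product, mem_range] at hp
    simp [Nat.add_mul_div_left _ _ (show 0 < W by omega), Nat.mod_eq_of_lt hp.1, Nat.div_eq_of_lt hp.1]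

end Vale.Agent.P328
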