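import Vale.Agent.P328.Rhomb

/-! Covering couplings at a source, in dual form, and unimodality of one arc. -/

namespace Vale.Agent.P328

open Finset Function

set_option linter.unusedSectionVars false

variable {V E : Type} [DecidableEq V] [Fintype E] [DecidableEq E]

namespace Net

theorem mon (N : Net V E) (e : E) (he : N.h e ≠ N.t e) (s : V) (σ : V → ℤ) (θ : ℤ) :
    (((N.fl σ).filter fun φ => θ ≤ φ e).card : ℝ) * N.cnt (σ + ev (N.t e) - ev s) ≤
      (((N.fl (σ + ev (N.t e) - ev s)).filter fun φ => θ ≤ φ e).card : ℝ) * N.cnt σ := by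
  have k1 : ∀ τ, (((N.fl τ).filter fun φ => θ ≤ φ e).card : ℝ) =
      ∑ x ∈ Icc (N.l e) (N.u e) with θ ≤ x, (N.del e).cnt (τ - x • N.dl e) := fun τ => by
    have := N.sum_fl e τ fun x => if θ ≤ x then 1 else 0
    simp only [sum_boole, ite_mul, one_mul, zero_mul] at this
    rw [this, sum_filter]
  have k2 : ∀ τ, N.cnt τ = ∑ x ∈ Icc (N.l e) (N.u e), (N.del e).cnt (τ - x • N.dl e) := fun τ => by
    simpa [cnt] using N.sum_fl e τ fun _ => 1
  rw [k1, k1, k2, k2 σ]
  refine tail_le _ _ _ θ fun x _ y _ h => ?_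
  have := mlr (N.del e).rh he.symm s (y - x).toNat (σ - x • N.dl e)
  rw [Int.toNat_of_nonneg (by omega),
    show σ - x • N.dl e + (y - x) • (ev (N.h e) - ev (N.t e)) = σ - y • N.dl e by
      unfold dl; module] at this
  rw [show σ + ev (N.t e) - ev s - x • N.dl e = σ - x • N.dl e + ev (N.t e) - ev s by abel,
    show σ + ev (N.t e) - ev s - y • N.dl e = σ - y • N.dl e + ev (N.t e) - ev s by abel]
  exact this

theorem fl_set (N : Net V E) (e : E) (l u : ℤ) (hl : N.l e ≤ l) (hu : u ≤ N.u e) (σ : V → ℤ) :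
    (N.set e (N.t e) (N.h e) l u).fl σ = (N.fl σ).filter fun φ => l ≤ φ e ∧ φ e ≤ u := by
  ext φ
  have : (N.set e (N.t e) (N.h e) l u).bd φ = N.bd φ := by simp [bd, dl, set]
  rw [mem_filter, mem_fl, mem_fl, this]
  constructor
  · rintro ⟨h1, h2⟩
    have h3 := h1 e
    simp only [set, update_self] at h3
    refine ⟨⟨fun y => ?_, h2⟩, h3⟩
    by_cases hy : y = e
    · subst hy; omega
    · simpa [set, update_of_ne hy] using h1 y
  · rintro ⟨⟨h1, h2⟩, h3⟩
    refine ⟨fun y => ?_, h2⟩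
    by_cases hy : y = e
    · subst hy; simpa [set] using h3
    · simpa [set, update_of_ne hy] using h1 y

theorem star_sum {N : Net V E} {v : V} (hv : ∀ e, N.h e ≠ v) {σ : V → ℤ} {φ : E → ℤ}
    (h : φ ∈ N.fl σ) : ∑ e with N.t e = v, φ e = σ v := by
  rw [← (mem_fl.mp h).2, bd_apply, sum_filter]
  refine sum_congr rfl fun e _ => ?_
  simp [dl, ev, (hv e).symm, eq_comm]

theorem cover_aux {v s : V} (hs : s ≠ v) (σ : V → ℤ) (gA gB : (E → ℤ) → ℝ) (n : ℕ) :
    ∀ N : Net V E, N.mu = n → (∀ e, N.h e ≠ v) →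
    (∀ φ ∈ N.fl σ, ∀ ψ ∈ N.fl (σ + ev v - ev s), ∀ e0, N.t e0 = v →
      (∀ e, N.t e = v → ψ e = φ e + if e = e0 then 1 else 0) → gB ψ ≤ gA φ) →
    N.cnt σ * ∑ ψ ∈ N.fl (σ + ev v - ev s), gB ψ ≤
      N.cnt (σ + ev v - ev s) * ∑ φ ∈ N.fl σ, gA φ := by
  induction n using Nat.strong_induction_on with
  | _ n ih =>
  intro N hn hv hyp
  set A := N.fl σ with hA
  set B := N.fl (σ + ev v - ev s) with hB
  have hmon : ∀ e, N.t e = v → ∀ θ, ((A.filter fun φ => θ ≤ φ e).card : ℝ) * B.card ≤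
      ((B.filter fun φ => θ ≤ φ e).card : ℝ) * A.card := by
    rintro e rfl θ
    exact N.mon e (hv e) s σ θ
  by_cases hc : ∀ e, N.t e = v → ∀ φ ∈ A, ∀ φ' ∈ A, φ e = φ' e
  · simp only [cnt, ← hA, ← hB]
    rw [← nsmul_eq_mul, ← nsmul_eq_mul, ← sum_const, ← sum_const, sum_comm (s := B)]
    refine sum_le_sum fun φ hφ => sum_le_sum fun ψ hψ => ?_
    have h1 : ∀ e, N.t e = v → φ e ≤ ψ e := fun e he => by
      have := hmon e he (φ e)
      rw [filter_true_of_mem fun x hx => (hc e he φ hφ x hx).le, mul_comm] at this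
      have h2 := le_of_mul_le_mul_right this (by exact_mod_cast card_pos.mpr ⟨φ, hφ⟩)
      have h3 := eq_of_subset_of_card_le (filter_subset _ B) (by exact_mod_cast h2)
      have h4 : ψ ∈ B.filter fun x => φ e ≤ x e := by rw [h3]; exact hψ
      exact (mem_filter.mp h4).2
    have h2 : ∑ e with N.t e = v, (ψ e - φ e) = 1 := by
      rw [sum_sub_distrib, star_sum hv hφ, star_sum hv hψ]
      simp [ev, hs.symm]
    obtain ⟨e0, h3, h4⟩ : ∃ e0 ∈ univ.filter (N.t · = v), 0 < ψ e0 - φ e0 :=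
      exists_lt_of_sum_lt (f := fun _ => 0) (by rw [h2]; simp)
    have nn : ∀ e ∈ (univ.filter (N.t · = v)).erase e0, 0 ≤ ψ e - φ e := fun e he =>
      sub_nonneg.mpr (h1 e (mem_filter.mp (mem_of_mem_erase he)).2)
    rw [← add_sum_erase _ _ h3] at h2
    have h5 := sum_nonneg nn
    refine hyp φ hφ ψ hψ e0 (mem_filter.mp h3).2 fun e he => ?_
    split_ifs with h
    · subst h; omega
    · have := single_le_sum nn (mem_erase.mpr ⟨h, mem_filter.mpr ⟨mem_univ e, he⟩⟩)
      have := h1 e he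
      omega
  push Not at hc
  obtain ⟨e1, he1, φ1, h1, φ2, h2, h12⟩ := hc
  set cv : E → ℤ → ℝ := fun e θ => A.card * ∑ φ ∈ A with θ ≤ φ e, gA φ -
    ((A.filter fun φ => θ ≤ φ e).card : ℝ) * ∑ φ ∈ A, gA φ with hcv
  have zero : ∑ e with N.t e = v, ∑ θ ∈ Ioc (N.l e) (N.u e), cv e θ = 0 := by
    have k : ∀ g : (E → ℤ) → ℝ, ∑ e with N.t e = v, ∑ θ ∈ Ioc (N.l e) (N.u e),
        ∑ φ ∈ A with θ ≤ φ e, g φ = ((σ v - ∑ e with N.t e = v, N.l e : ℤ) : ℝ) * ∑ φ ∈ A, g φ := by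
      intro g
      simp only [sum_filter (s := A)]
      rw [mul_sum, sum_congr rfl fun e _ => sum_comm, sum_comm]
      refine sum_congr rfl fun φ hφ => ?_
      rw [← star_sum hv hφ, ← sum_sub_distrib, Int.cast_sum, sum_mul]
      refine sum_congr rfl fun e _ => ?_
      have := (mem_fl.mp hφ).1 e
      rw [← sum_filter, sum_const, nsmul_eq_mul,
        show (Ioc (N.l e) (N.u e)).filter (· ≤ φ e) = Ioc (N.l e) (φ e) by ext; simp; omega,
        Int.card_Ioc, ← Int.cast_natCast, Int.toNat_of_nonneg (by omega)]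
    have k1 := k fun _ => 1
    simp only [sum_const, nsmul_eq_mul, mul_one] at k1
    simp only [hcv, sum_sub_distrib, ← mul_sum, ← sum_mul, k, k1]
    ring
  obtain ⟨e, he, θ, ⟨x1, m1, p1⟩, ⟨x0, m0, p0⟩, hneg⟩ : ∃ e, N.t e = v ∧ ∃ θ,
      (∃ φ ∈ A, θ ≤ φ e) ∧ (∃ φ ∈ A, ¬θ ≤ φ e) ∧ cv e θ ≤ 0 := by
    by_contra hcon
    push Not at hcon
    have nn : ∀ e, N.t e = v → ∀ θ, 0 ≤ cv e θ := fun e he θ => by
      by_cases a : ∃ φ ∈ A, θ ≤ φ e
      · by_cases b : ∃ φ ∈ A, φ e < θ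
        · exact (hcon e he θ a b).le
        · push Not at b
          simp [hcv, filter_true_of_mem b]
      · push Not at a
        simp [hcv, filter_false_of_mem fun φ h => not_le.mpr (a φ h)]
    refine zero.not_gt (sum_pos' (fun e he => sum_nonneg fun θ _ => nn e (mem_filter.mp he).2 θ)
      ⟨e1, mem_filter.mpr ⟨mem_univ _, he1⟩, sum_pos' (fun θ _ => nn e1 he1 θ)
        ⟨max (φ1 e1) (φ2 e1), ?_, hcon e1 he1 _ ?_ ?_⟩⟩)
    · have := (mem_fl.mp h1).1 e1
      have := (mem_fl.mp h2).1 e1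
      rw [mem_Ioc]; omega
    · rcases le_total (φ1 e1) (φ2 e1) with h | h
      · exact ⟨φ2, h2, by omega⟩
      · exact ⟨φ1, h1, by omega⟩
    · rcases le_total (φ1 e1) (φ2 e1) with h | h
      · exact ⟨φ1, h1, by omega⟩
      · exact ⟨φ2, h2, by omega⟩
  have b1 := (mem_fl.mp m1).1 e
  have b0 := (mem_fl.mp m0).1 e
  have sub : ∀ l u (p : ℤ → Prop) [DecidablePred p], N.l e ≤ l → u ≤ N.u e →
      (u - l).toNat < (N.u e - N.l e).toNat →
      (∀ x, N.l e ≤ x → x ≤ N.u e → ((l ≤ x ∧ x ≤ u) ↔ p x)) →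
      ((A.filter fun φ => p (φ e)).card : ℝ) * ∑ ψ ∈ B with p (ψ e), gB ψ ≤
        ((B.filter fun φ => p (φ e)).card : ℝ) * ∑ φ ∈ A with p (φ e), gA φ := by
    intro l u p _ hl hu hlt hp
    have e1 : ∀ τ, (N.set e (N.t e) (N.h e) l u).fl τ = (N.fl τ).filter fun φ => p (φ e) := fun τ => by
      rw [fl_set N e l u hl hu]
      exact filter_congr fun φ hφ => hp _ ((mem_fl.mp hφ).1 e).1 ((mem_fl.mp hφ).1 e).2
    have := ih _ (by rw [mu_set, ← hn, N.mu_del e]; omega) (N.set e (N.t e) (N.h e) l u) rfl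
      (by simpa [set] using hv) (by
        intro φ hφ ψ hψ
        rw [e1] at hφ hψ
        simpa [set] using hyp φ (mem_filter.mp hφ).1 ψ (mem_filter.mp hψ).1)
    simpa only [cnt, e1] using this
  have s1 := sub θ (N.u e) (θ ≤ ·) (by omega) le_rfl (by omega) fun x _ _ => by omega
  have s0 := sub (N.l e) (θ - 1) (fun x => ¬θ ≤ x) le_rfl (by omega) (by omega) fun x _ _ => by omega
  have m := hmon e he θ
  simp only [hcv] at hneg
  have q1 : (0 : ℝ) < (A.filter fun φ => θ ≤ φ e).card := by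
    exact_mod_cast card_pos.mpr ⟨x1, mem_filter.mpr ⟨m1, p1⟩⟩
  have q0 : (0 : ℝ) < (A.filter fun φ => ¬θ ≤ φ e).card := by
    exact_mod_cast card_pos.mpr ⟨x0, mem_filter.mpr ⟨m0, p0⟩⟩
  have cA : (A.card : ℝ) = (A.filter fun φ => θ ≤ φ e).card + (A.filter fun φ => ¬θ ≤ φ e).card := by
    exact_mod_cast (card_filter_add_card_filter_not _).symm
  have cB : (B.card : ℝ) = (B.filter fun φ => θ ≤ φ e).card + (B.filter fun φ => ¬θ ≤ φ e).card := by
    exact_mod_cast (card_filter_add_card_filter_not _).symm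
  simp only [cnt, ← hA, ← hB]
  rw [← sum_filter_add_sum_filter_not A (fun φ => θ ≤ φ e), cA] at hneg ⊢
  rw [← sum_filter_add_sum_filter_not B (fun φ => θ ≤ φ e), cB]
  rw [cA, cB] at m
  generalize ((A.filter fun φ => θ ≤ φ e).card : ℝ) = a1 at *
  generalize ((A.filter fun φ => ¬θ ≤ φ e).card : ℝ) = a0 at *
  generalize ((B.filter fun φ => θ ≤ φ e).card : ℝ) = c1 at *
  generalize ((B.filter fun φ => ¬θ ≤ φ e).card : ℝ) = c0 at *
  generalize (∑ φ ∈ A with θ ≤ φ e, gA φ) = G1 at *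
  generalize (∑ φ ∈ A with ¬θ ≤ φ e, gA φ) = G0 at *
  generalize (∑ φ ∈ B with θ ≤ φ e, gB φ) = H1 at *
  generalize (∑ φ ∈ B with ¬θ ≤ φ e, gB φ) = H0 at *
  refine le_of_mul_le_mul_left ?_ (mul_pos q1 q0)
  have u1 := mul_le_mul_of_nonneg_left s1 (mul_pos (add_pos q1 q0) q0).le
  have u0 := mul_le_mul_of_nonneg_left s0 (mul_pos (add_pos q1 q0) q1).le
  have u2 := mul_nonneg (show 0 ≤ c1 * a0 - a1 * c0 by linarith) (show 0 ≤ a1 * G0 - a0 * G1 by linarith)
  nlinarith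

theorem quasi (N : Net V E) (e : E) (he : N.h e ≠ N.t e) (σ : V → ℤ) (k : ℕ) : ∀ x y z : ℤ,
    z - x = k → x ≤ y → y ≤ z →
    min ((N.fl σ).filter fun φ => φ e = x).card ((N.fl σ).filter fun φ => φ e = z).card ≤
      ((N.fl σ).filter fun φ => φ e = y).card := by
  set n : ℤ → ℕ := fun x => ((N.fl σ).filter fun φ => φ e = x).card with hn
  have k1 : ∀ x, (n x : ℝ) = if x ∈ Icc (N.l e) (N.u e) then (N.del e).cnt (σ - x • N.dl e) else 0 :=
    fun x => by
      have := N.sum_fl e σ fun y => if y = x then 1 else 0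
      simpa only [sum_boole, ite_mul, one_mul, zero_mul, sum_ite_eq'] using this
  have k2 : ∀ x z, x < z → n x * n z ≤ n (x + 1) * n (z - 1) := fun x z h => by
    have := mlr (N.del e).rh he.symm (N.h e) (z - (x + 1)).toNat (σ - (x + 1) • N.dl e)
    rw [Int.toNat_of_nonneg (by omega),
      show σ - (x + 1) • N.dl e + (z - (x + 1)) • (ev (N.h e) - ev (N.t e)) = σ - z • N.dl e by
        unfold dl; module,
      show σ - (x + 1) • N.dl e + ev (N.t e) - ev (N.h e) = σ - x • N.dl e by unfold dl; module,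
      show σ - z • N.dl e + ev (N.t e) - ev (N.h e) = σ - (z - 1) • N.dl e by unfold dl; module,
      mul_comm] at this
    rify
    simp only [k1, mem_Icc]
    have := (N.del e).cnt_nonneg
    split_ifs <;> first | omega | assumption | simp [mul_nonneg, *]
  show ∀ x y z : ℤ, z - x = k → x ≤ y → y ≤ z → min (n x) (n z) ≤ n y
  induction k with
  | zero => intro x y z h1 h2 h3; rw [show y = x by omega]; exact min_le_left _ _
  | succ k ih =>
    intro x y z h1 h2 h3
    rcases h2.eq_or_lt with rfl | h2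
    · exact min_le_left _ _
    rcases h3.eq_or_lt with rfl | h3
    · exact min_le_right _ _
    have a := ih (x + 1) y z (by omega) (by omega) h3.le
    have b := ih x y (z - 1) (by omega) h2.le (by omega)
    have c := k2 x z (by omega)
    by_contra hc
    have := Nat.mul_lt_mul'' (show n (x + 1) < n x by omega) (show n (z - 1) < n z by omega)
    omega

end Net

end Vale.Agent.P328
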