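import Mathlib.Algebra.BigOperators.Intervals
import Mathlib.Algebra.Order.BigOperators.Ring.Finset
import Mathlib.Algebra.BigOperators.Pi
import Mathlib.Data.Fintype.Pi
import Mathlib.Data.Int.Interval
import Mathlib.Data.Real.Basic
import Mathlib.Tactic

/-! Integer flows with interval capacities: exchange and counting lemmas. -/

namespace Vale.Agent.P328

open Finset Function

set_option linter.unusedSectionVars false

variable {V E : Type} [DecidableEq V] [Fintype E] [DecidableEq E]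

/-- unit vector -/
def ev (v : V) : V → ℤ := fun w => if w = v then 1 else 0

/-- a network with ranges on the arcs -/
structure Net (V E : Type) where
  t : E → V
  h : E → V
  l : E → ℤ
  u : E → ℤ

namespace Net

def dl (N : Net V E) (e : E) : V → ℤ := ev (N.t e) - ev (N.h e)

def bd (N : Net V E) (φ : E → ℤ) : V → ℤ := ∑ e, φ e • N.dl e

open Classical in
noncomputable def fl (N : Net V E) (σ : V → ℤ) : Finset (E → ℤ) :=
  (Fintype.piFinset fun e => Icc (N.l e) (N.u e)).filter fun φ => N.bd φ = σ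

theorem mem_fl {N : Net V E} {σ : V → ℤ} {φ : E → ℤ} :
    φ ∈ N.fl σ ↔ (∀ e, N.l e ≤ φ e ∧ φ e ≤ N.u e) ∧ N.bd φ = σ := by
  simp [fl]

noncomputable def cnt (N : Net V E) (σ : V → ℤ) : ℝ := (N.fl σ).card

theorem cnt_nonneg (N : Net V E) (σ : V → ℤ) : 0 ≤ N.cnt σ := Nat.cast_nonneg _

theorem cnt_pos {N : Net V E} {σ : V → ℤ} : 0 < N.cnt σ ↔ (N.fl σ).Nonempty := by
  simp [cnt]

def set (N : Net V E) (e : E) (a b : V) (l u : ℤ) : Net V E :=
  ⟨update N.t e a, update N.h e b, update N.l e l, update N.u e u⟩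

def del (N : Net V E) (e : E) : Net V E := ⟨N.t, N.h, update N.l e 0, update N.u e 0⟩

omit [DecidableEq V] [Fintype E] in
theorem set_self (N : Net V E) (e : E) : N.set e (N.t e) (N.h e) (N.l e) (N.u e) = N := by
  simp [set]

def mu (N : Net V E) : ℕ := ∑ e, (N.u e - N.l e).toNat

omit [DecidableEq V] in
theorem mu_set (N : Net V E) (e : E) (a b : V) (l u : ℤ) :
    (N.set e a b l u).mu = (N.del e).mu + (u - l).toNat := by
  unfold mu
  rw [← add_sum_erase _ _ (mem_univ e), ← add_sum_erase _ _ (mem_univ e)]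
  have : ∑ x ∈ univ.erase e, ((N.set e a b l u).u x - (N.set e a b l u).l x).toNat =
      ∑ x ∈ univ.erase e, ((N.del e).u x - (N.del e).l x).toNat :=
    sum_congr rfl fun x hx => by simp [set, del, update_of_ne (ne_of_mem_erase hx)]
  rw [this]
  simp [set, del, add_comm]

omit [DecidableEq V] in
theorem mu_del (N : Net V E) (e : E) : N.mu = (N.del e).mu + (N.u e - N.l e).toNat := by
  rw [← mu_set N e (N.t e) (N.h e), set_self]

theorem bd_add (N : Net V E) (φ ψ : E → ℤ) : N.bd (φ + ψ) = N.bd φ + N.bd ψ := by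
  simp [bd, add_smul, sum_add_distrib]

theorem bd_sub (N : Net V E) (φ ψ : E → ℤ) : N.bd (φ - ψ) = N.bd φ - N.bd ψ := by
  simp [bd, sub_smul, sum_sub_distrib]

theorem bd_single (N : Net V E) (e : E) (x : ℤ) : N.bd (Pi.single e x) = x • N.dl e := by
  unfold bd
  rw [sum_eq_single e] <;> simp +contextual

theorem bd_apply (N : Net V E) (φ : E → ℤ) (v : V) : N.bd φ v = ∑ e, φ e * N.dl e v := by
  simp [bd, Finset.sum_apply]

theorem bd_set (N : Net V E) (e : E) (a b : V) (l u : ℤ) {ψ : E → ℤ} (hψ : ψ e = 0) (x : ℤ) :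
    (N.set e a b l u).bd (update ψ e x) = (N.del e).bd ψ + x • (ev a - ev b) := by
  unfold bd
  rw [← add_sum_erase _ _ (mem_univ e), ← add_sum_erase _ _ (mem_univ e), hψ]
  have : ∑ y ∈ univ.erase e, update ψ e x y • (N.set e a b l u).dl y =
      ∑ y ∈ univ.erase e, ψ y • (N.del e).dl y :=
    sum_congr rfl fun y hy => by simp [set, del, dl, update_of_ne (ne_of_mem_erase hy)]
  rw [this]
  simp [set, dl, add_comm]

theorem sum_fl_set (N : Net V E) (e : E) (a b : V) (l u : ℤ) (τ : V → ℤ) (g : (E → ℤ) → ℝ) :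
    ∑ φ ∈ (N.set e a b l u).fl τ, g φ =
      ∑ x ∈ Icc l u, ∑ ψ ∈ (N.del e).fl (τ - x • (ev a - ev b)), g (update ψ e x) := by
  rw [← sum_fiberwise_of_maps_to (g := fun φ => φ e) (t := Icc l u)]
  · refine sum_congr rfl fun x hx => ?_
    symm
    refine sum_nbij' (fun ψ => update ψ e x) (fun φ => update φ e 0) ?_ ?_ ?_ ?_ fun _ _ => rfl
    · intro ψ hψ
      obtain ⟨h1, h2⟩ := mem_fl.mp hψ
      have h0 : ψ e = 0 := by have := h1 e; simp [del] at this; omega
      refine mem_filter.mpr ⟨mem_fl.mpr ⟨fun y => ?_, ?_⟩, by simp⟩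
      · by_cases hy : y = e
        · subst hy; simpa [set] using hx
        · simpa [set, del, update_of_ne hy] using h1 y
      · rw [bd_set _ _ _ _ _ _ h0, h2]; abel
    · intro φ hφ
      obtain ⟨h1, h3⟩ := mem_filter.mp hφ
      obtain ⟨h1, h2⟩ := mem_fl.mp h1
      refine mem_fl.mpr ⟨fun y => ?_, ?_⟩
      · by_cases hy : y = e
        · subst hy; simp [del]
        · simpa [set, del, update_of_ne hy] using h1 y
      · have := bd_set N e a b l u (ψ := update φ e 0) (by simp) x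
        rw [update_idem, ← h3, update_eq_self, h2, h3] at this
        rw [this]; abel
    · intro ψ hψ
      have h0 : ψ e = 0 := by have := (mem_fl.mp hψ).1 e; simp [del] at this; omega
      rw [update_idem, ← h0, update_eq_self]
    · intro φ hφ
      rw [update_idem, ← (mem_filter.mp hφ).2, update_eq_self]
  · intro φ hφ
    simpa [set] using (mem_fl.mp hφ).1 e

theorem sum_fl (N : Net V E) (e : E) (τ : V → ℤ) (g : ℤ → ℝ) :
    ∑ φ ∈ N.fl τ, g (φ e) = ∑ x ∈ Icc (N.l e) (N.u e), g x * (N.del e).cnt (τ - x • N.dl e) := by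
  have := sum_fl_set N e (N.t e) (N.h e) (N.l e) (N.u e) τ fun φ => g (φ e)
  rw [set_self] at this
  rw [this]
  exact sum_congr rfl fun x _ => by simp [cnt, dl, mul_comm]

theorem cnt_test (N : Net V E) (e : E) (a b : V) (τ : V → ℤ) :
    (N.set e a b 0 1).cnt τ = (N.del e).cnt τ + (N.del e).cnt (τ - ev a + ev b) := by
  have := sum_fl_set N e a b 0 1 τ fun _ => 1
  rw [show (Icc 0 1 : Finset ℤ) = {0, 1} from rfl, sum_pair (by norm_num)] at this
  simp only [sum_const, nsmul_eq_mul, mul_one, zero_smul, sub_zero, one_smul] at this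
  rw [show τ - ev a + ev b = τ - (ev a - ev b) by abel]
  exact this

theorem dl_cases (N : Net V E) (e : E) (v : V) (h : N.dl e v ≠ 0) :
    ∃ w, w ≠ v ∧ N.dl e v • N.dl e = ev v - ev w ∧ (N.dl e v = 1 ∨ N.dl e v = -1) := by
  by_cases h1 : v = N.t e <;> by_cases h2 : v = N.h e
  · exfalso; apply h; simp [dl, ev, ← h1, ← h2]
  · have : N.dl e v = 1 := by simp [dl, ev, ← h1, h2]
    exact ⟨N.h e, Ne.symm h2, by rw [this, one_smul, dl, ← h1], Or.inl this⟩
  · have : N.dl e v = -1 := by simp [dl, ev, ← h2, h1]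
    exact ⟨N.t e, Ne.symm h1, by rw [this, dl, ← h2]; simp, Or.inr this⟩
  · exfalso; apply h; simp [dl, ev, h1, h2]

theorem conf (N : Net V E) (n : ℕ) : ∀ (D : E → ℤ) (v : V), ∑ e, (D e).natAbs = n →
    0 < N.bd D v → ∃ P w, (∀ e, (0 ≤ P e ∧ P e ≤ D e) ∨ (D e ≤ P e ∧ P e ≤ 0)) ∧
      N.bd D w < 0 ∧ N.bd P = ev v - ev w := by
  induction n using Nat.strong_induction_on with
  | _ n ih =>
  intro D v hn hv
  obtain ⟨e, -, he⟩ : ∃ e ∈ univ, 0 < D e * N.dl e v := by
    rw [bd_apply] at hv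
    exact exists_lt_of_sum_lt (f := fun _ => 0) (by simpa using hv)
  obtain ⟨w, hw, h1, h2⟩ := dl_cases N e v (by rintro h; simp [h] at he)
  set s := N.dl e v with hs
  have hb : N.bd (Pi.single e s) = ev v - ev w := by rw [bd_single, h1]
  by_cases hD : N.bd D w < 0
  · refine ⟨Pi.single e s, w, fun y => ?_, hD, hb⟩
    by_cases hy : y = e
    · subst hy; simp only [Pi.single_eq_same]; rcases h2 with h | h <;> rw [h] at he ⊢ <;> omega
    · simp only [Pi.single_eq_of_ne hy]; omega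
  · have hlt : ∑ y, ((D - Pi.single e s : E → ℤ) y).natAbs < n := by
      rw [← hn]
      refine sum_lt_sum (fun y _ => ?_) ⟨e, mem_univ _, ?_⟩
      · by_cases hy : y = e
        · subst hy; simp only [Pi.sub_apply, Pi.single_eq_same]
          rcases h2 with h | h <;> rw [h] at he ⊢ <;> omega
        · simp [Pi.single_eq_of_ne hy]
      · simp only [Pi.sub_apply, Pi.single_eq_same]
        rcases h2 with h | h <;> rw [h] at he ⊢ <;> omega
    obtain ⟨P, w', p1, p2, p3⟩ := ih _ hlt (D - Pi.single e s) w rfl (by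
      rw [bd_sub, hb]; simp [ev, hw]; omega)
    rw [bd_sub, hb] at p2
    have hw1 : w' ≠ w := by rintro rfl; simp [ev, hw] at p2; omega
    have hw2 : w' ≠ v := by rintro rfl; simp [ev, hw1] at p2; omega
    refine ⟨P + Pi.single e s, w', fun y => ?_, by simpa [ev, hw1, hw2] using p2, ?_⟩
    · have := p1 y
      by_cases hy : y = e
      · subst hy; simp only [Pi.sub_apply, Pi.add_apply, Pi.single_eq_same] at this ⊢
        rcases h2 with h | h <;> rw [h] at he this ⊢ <;> omega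
      · simpa [Pi.single_eq_of_ne hy] using this
    · rw [bd_add, hb, p3]; abel

theorem exch (N : Net V E) {τ τ' : V → ℤ} {v : V} (h : 0 < N.cnt τ) (h' : 0 < N.cnt τ')
    (hv : τ v < τ' v) : ∃ w, τ' w < τ w ∧ 0 < N.cnt (τ + ev v - ev w) := by
  obtain ⟨φ, h⟩ := cnt_pos.mp h
  obtain ⟨φ', h'⟩ := cnt_pos.mp h'
  obtain ⟨h1, h2⟩ := mem_fl.mp h
  obtain ⟨h1', h2'⟩ := mem_fl.mp h'
  obtain ⟨P, w, p1, p2, p3⟩ := conf N _ (φ' - φ) v rfl (by rw [bd_sub, h2, h2']; simpa using hv)
  rw [bd_sub, h2, h2'] at p2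
  refine ⟨w, by simpa using p2, cnt_pos.mpr ⟨φ + P, mem_fl.mpr ⟨fun e => ?_, ?_⟩⟩⟩
  · have := p1 e
    have := h1 e
    have := h1' e
    simp only [Pi.sub_apply, Pi.add_apply] at *
    omega
  · rw [bd_add, h2, p3]; abel

/-- the rhombus inequality -/
def Rh (N : Net V E) : Prop := ∀ (s v t : V) (σ : V → ℤ),
  N.cnt (σ - ev t + ev s) * N.cnt (σ + ev v - ev s) ≤ N.cnt (σ + ev v - ev t) * N.cnt σ

theorem mlr {N : Net V E} (hN : N.Rh) {p q : V} (hpq : p ≠ q) (s : V) (k : ℕ) :
    ∀ τ : V → ℤ, N.cnt (τ + (k : ℤ) • (ev q - ev p)) * N.cnt (τ + ev p - ev s) ≤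
      N.cnt τ * N.cnt (τ + (k : ℤ) • (ev q - ev p) + ev p - ev s) := by
  induction k with
  | zero => intro τ; simp
  | succ k ih =>
    intro τ
    have h1 := hN p q s τ
    have h2 := ih (τ + ev q - ev p)
    rw [show τ + ev q - ev p + (k : ℤ) • (ev q - ev p) = τ + ((k + 1 : ℕ) : ℤ) • (ev q - ev p) by
      push_cast; rw [add_smul, one_smul]; abel,
      show τ + ev q - ev p + ev p - ev s = τ + ev q - ev s by abel] at h2
    rw [show τ - ev s + ev p = τ + ev p - ev s by abel] at h1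
    rcases (N.cnt_nonneg (τ + ((k + 1 : ℕ) : ℤ) • (ev q - ev p))).eq_or_lt with a | a
    · rw [← a, zero_mul]; exact mul_nonneg (cnt_nonneg _ _) (cnt_nonneg _ _)
    rcases (N.cnt_nonneg (τ + ev p - ev s)).eq_or_lt with b | b
    · rw [← b, mul_zero]; exact mul_nonneg (cnt_nonneg _ _) (cnt_nonneg _ _)
    obtain ⟨w, w1, w2⟩ := exch N (v := q) b a (by
      simp only [Pi.add_apply, Pi.sub_apply, Pi.smul_apply, ev, hpq.symm, smul_eq_mul]
      split_ifs <;> simp <;> omega)
    obtain rfl : w = p := by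
      by_contra hw
      simp only [Pi.add_apply, Pi.sub_apply, Pi.smul_apply, ev, hw, smul_eq_mul] at w1
      split_ifs at w1 <;> simp at w1 <;> omega
    rw [show τ + ev w - ev s + ev q - ev w = τ + ev q - ev s by abel] at w2
    refine le_of_mul_le_mul_right ?_ w2
    have := mul_le_mul_of_nonneg_left h2 b.le
    have := mul_le_mul_of_nonneg_right h1
      (N.cnt_nonneg (τ + ((k + 1 : ℕ) : ℤ) • (ev q - ev w) + ev w - ev s))
    nlinarith

end Net

end Vale.Agent.P328
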