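import Vale.Agent.P328.Algo

/-! Running time and output law of the sampler. -/

namespace Vale.Agent.P328

open Finset Function Vale.Agent.Common.TreeTM Turing

instance encI : Enc Inst := ⟨fun P => Enc.enc (List.ofFn P.r, List.ofFn P.c)⟩

def run (r c : List ℕ) (w : List Bool) : ℕ × ℕ × List (List ℕ) :=
  w.foldl (stepBit (pw (db r c) (db r c).length) r.sum.bits (5 * (db r c).length + 1)) (0, 0, init r c)

def algo (x : (Inst × ℕ) × List Bool) : List (List ℕ) :=
  (run (List.ofFn x.1.1.r) (List.ofFn x.1.1.c) x.2).2.2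

theorem tc_algo : TC 0 algo := by
  have h0 : TC 0 fun x : (Inst × ℕ) × List Bool => (List.ofFn x.1.1.r, List.ofFn x.1.1.c) :=
    (TC.fst (TC.fst TC.id)).of_enc fun _ => rfl
  have hr := TC.fst h0
  have hc := TC.snd h0
  dsimp only at hr hc
  have hd := tc_db hr hc
  have hb := TC.add (TC.mul (TC.const 5) (TC.length hd)) (TC.const 1)
  have b1 : Bd 0 fun x : (Inst × ℕ) × List Bool =>
      5 * (db (List.ofFn x.1.1.r) (List.ofFn x.1.1.c)).length + 1 :=
    ((Bd.const _ 5).mul (hd.bd.mono fun _ => length_le_sz _)).add (Bd.const _ 1)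
  have b2 : Bd 0 fun x : (Inst × ℕ) × List Bool => x.1.1.m :=
    hr.bd.mono fun x => by simpa using length_le_sz (List.ofFn x.1.1.r)
  have b3 : Bd 0 fun x : (Inst × ℕ) × List Bool => x.1.1.n :=
    hc.bd.mono fun x => by simpa using length_le_sz (List.ofFn x.1.1.c)
  have hW := tc_pw hd (TC.length hd)
  have hs := TC.bits (TC.sum hr)
  have hf : TC 0 fun p : ((Inst × ℕ) × List Bool) × (ℕ × ℕ × List (List ℕ)) × Bool =>
      stepBit (pw (db (List.ofFn p.1.1.1.r) (List.ofFn p.1.1.1.c))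
        (db (List.ofFn p.1.1.1.r) (List.ofFn p.1.1.1.c)).length) (List.ofFn p.1.1.1.r).sum.bits
        (5 * (db (List.ofFn p.1.1.1.r) (List.ofFn p.1.1.1.c)).length + 1) p.2.1 p.2.2 :=
    tc_stepBit (hW.comp TC.fst') (hs.comp TC.fst') (hb.comp TC.fst') (TC.fst TC.snd') (TC.snd TC.snd')
  have hi : TC 0 fun x : (Inst × ℕ) × List Bool =>
      ((0, 0, init (List.ofFn x.1.1.r) (List.ofFn x.1.1.c)) : ℕ × ℕ × List (List ℕ)) :=
    TC.pair (TC.const 0) (TC.pair (TC.const 0) (tc_init hr hc))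
  suffices h : TC 0 fun x : (Inst × ℕ) × List Bool =>
      run (List.ofFn x.1.1.r) (List.ofFn x.1.1.c) x.2 from TC.snd (TC.snd h)
  refine TC.foldl_inv (f := fun (x : (Inst × ℕ) × List Bool) => stepBit (pw (db (List.ofFn x.1.1.r)
      (List.ofFn x.1.1.c)) (db (List.ofFn x.1.1.r) (List.ofFn x.1.1.c)).length)
      (List.ofFn x.1.1.r).sum.bits (5 * (db (List.ofFn x.1.1.r) (List.ofFn x.1.1.c)).length + 1))
    hf hi TC.snd'
    ((((Bd.const _ 8).mul b1).add (b2.mul ((b3.mul (((Bd.const _ 4).mul (TC.sum hr).bd).add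
      (Bd.const _ 2))).add (Bd.const _ 2)))).add (Bd.const _ 5))
    (fun x _ st => st.1 ≤ 5 * (db (List.ofFn x.1.1.r) (List.ofFn x.1.1.c)).length + 1 ∧
      st.2.1 < 2 ^ st.1 ∧ ∃ X ∈ Tab (fun i => (x.1.1.r i : ℤ)) fun j => (x.1.1.c j : ℤ), st.2.2 = lst X)
    (fun x => ⟨Nat.zero_le _, Nat.one_pos, init_eq _⟩) (fun x _ st c _ h => step_inv _ _ _ st c h)
    ?_
  rintro x - ⟨a, b, T⟩ - ⟨h1, h2, X, hX, rfl⟩
  dsimp only at *
  have s1 := sz_nat_self a
  have s2 := sz_nat_le h2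
  have s3 : sz (lst X) ≤ (lst X).length *
      (x.1.1.n * (4 * sz (List.ofFn x.1.1.r).sum + 1 + 1) + 1 + 1) + 1 := sz_list_le fun l hl => by
    obtain ⟨i, rfl⟩ := (List.mem_ofFn' _ _).mp hl
    refine (sz_list_le (b := 4 * sz (List.ofFn x.1.1.r).sum + 1) fun y hy => ?_).trans (by simp)
    obtain ⟨j, rfl⟩ := (List.mem_ofFn' _ _).mp hy
    refine sz_nat_mono ?_
    obtain ⟨x0, x1, -⟩ := mem_Tab.mp hX
    have := le_row x0 i j
    have := x1 i
    have := single_le_sum (f := x.1.1.r) (fun _ _ => Nat.zero_le _) (mem_univ i)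
    rw [List.sum_ofFn]
    dsimp only
    omega
  rw [show (lst X).length = x.1.1.m by simp [lst, rows]] at s3
  rw [sz_pair, sz_pair]
  simp only [add_assoc, one_add_one_eq_two] at s3 ⊢
  omega

theorem e_bool (b : Bool) : encBool b = (Enc.enc b).enc := by cases b <;> rfl

theorem e_nat (n : ℕ) : encNat n = (Enc.enc n).enc := enc_list _ e_bool n.bits

theorem e_inst (x : Inst × ℕ) : encInst x = (Enc.enc x).enc := by
  simp only [encInst, encPair, encList, enc_list _ e_nat]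
  rw [e_nat]
  rfl

theorem algo_poly : ∃ tm : TM2ComputableInPolyTime (encPair encInst (encList encBool))
    (encList (encList encNat)) algo, ∀ k, Finite (tm.tm.Γ k) := by
  obtain ⟨C, tm, h1, h2⟩ := tc_algo.toTM (encPair encInst (encList encBool))
    (encList (encList encNat)) algo id
    (fun x => by simp only [encPair, encList, enc_list _ e_bool, e_inst]; rfl)
    fun x => enc_list _ (enc_list _ e_nat) _
  refine ⟨⟨tm.toTM2ComputableAux, (2 * Polynomial.X + 2) ^ C, fun a =>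
    ⟨(tm.outputsFun a).toEvalsTo, (tm.outputsFun a).steps_le_m.trans ((h2 _).trans ?_)⟩⟩, h1⟩
  generalize (encPair encInst (encList encBool) a).length = L
  simp only [Polynomial.eval_pow, Polynomial.eval_add, Polynomial.eval_mul, Polynomial.eval_ofNat,
    Polynomial.eval_X, zero_add, pow_one]
  rw [mul_comm, pow_mul]
  refine Nat.pow_le_pow_left ?_ _
  rcases Nat.eq_zero_or_pos L with rfl | h
  · simp
  · have := Nat.pow_log_le_self 2 h.ne'
    rw [pow_succ]
    omega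

def toN {m n : ℕ} (X : Fin m × Fin n → ℤ) : Fin m → Fin n → ℕ := fun i j => (X (i, j)).toNat

theorem mem_Omega {P : Inst} {X : Fin P.m → Fin P.n → ℕ} :
    X ∈ P.Omega ↔ (∀ i, ∑ j, X i j = P.r i) ∧ ∀ j, ∑ i, X i j = P.c j := by
  simp only [Inst.Omega, mem_filter, Fintype.mem_piFinset, mem_range, and_iff_right_iff_imp]
  exact fun h i j => Nat.lt_succ_of_le
    (h.1 i ▸ single_le_sum (f := X i) (fun _ _ => Nat.zero_le _) (mem_univ j))

theorem toN_mem {P : Inst} {X : Fin P.m × Fin P.n → ℤ}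
    (h : X ∈ Tab (fun i => (P.r i : ℤ)) fun j => (P.c j : ℤ)) : toN X ∈ P.Omega := by
  obtain ⟨h0, h1, h2⟩ := mem_Tab.mp h
  refine mem_Omega.mpr ⟨fun i => ?_, fun j => ?_⟩ <;> zify
  · simp only [toN, Int.toNat_of_nonneg (h0 _), h1]
  · simp only [toN, Int.toNat_of_nonneg (h0 _), h2]

theorem sum_Tab (P : Inst) (g : (Fin P.m → Fin P.n → ℕ) → ℝ) :
    ∑ X ∈ Tab (fun i => (P.r i : ℤ)) fun j => (P.c j : ℤ), g (toN X) = ∑ Y ∈ P.Omega, g Y := by
  refine sum_nbij' toN (fun Y e => (Y e.1 e.2 : ℤ)) (fun _ h => toN_mem h) (fun Y h => ?_)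
    (fun X h => funext fun e => Int.toNat_of_nonneg ((mem_Tab.mp h).1 e)) (fun _ _ => rfl) fun _ _ => rfl
  obtain ⟨h1, h2⟩ := mem_Omega.mp h
  exact mem_Tab.mpr ⟨fun _ => Nat.cast_nonneg _, fun i => by exact_mod_cast h1 i,
    fun j => by exact_mod_cast h2 j⟩

theorem rows_inj {m n : ℕ} : Injective (rows : (Fin m → Fin n → ℕ) → _) := fun _ _ h =>
  funext fun i => List.ofFn_injective (congrFun (List.ofFn_injective h) i)

theorem algo_mem (P : Inst) (q : ℕ) (w : List Bool) : ∃ X ∈ P.Omega, algo ((P, q), w) = rows X := by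
  have : ∀ (w : List Bool) W sb b (st : ℕ × ℕ × List (List ℕ)), (st.1 ≤ b ∧ st.2.1 < 2 ^ st.1 ∧
      ∃ X ∈ Tab (fun i => (P.r i : ℤ)) fun j => (P.c j : ℤ), st.2.2 = lst X) →
      ∃ X ∈ Tab (fun i => (P.r i : ℤ)) fun j => (P.c j : ℤ), (w.foldl (stepBit W sb b) st).2.2 = lst X := by
    intro w W sb b
    induction w with
    | nil => exact fun st h => h.2.2
    | cons c w ih => exact fun st h => ih _ (step_inv _ _ _ st c h)
  obtain ⟨X, hX, e⟩ := this w _ _ _ (0, 0, _) ⟨Nat.zero_le _, Nat.one_pos, init_eq P⟩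
  exact ⟨_, toN_mem hX, e⟩

theorem size_bds (P : Inst) (q : ℕ) : P.m ≤ (encInst (P, q)).length ∧ P.n ≤ (encInst (P, q)).length ∧
    (List.ofFn P.r).sum.bits.length ≤ 2 * (encInst (P, q)).length ∧ q < 2 ^ (encInst (P, q)).length ∧
    2 ≤ (encInst (P, q)).length := by
  have e : (encInst (P, q)).length = sz (List.ofFn P.r) + sz (List.ofFn P.c) + 1 + sz q + 1 := by
    rw [e_inst, ← sz_pair, ← sz_pair]; rfl
  have a := length_le_sz (List.ofFn P.r)
  have b := length_le_sz (List.ofFn P.c)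
  rw [List.length_ofFn] at a b
  refine ⟨by omega, by omega, ?_, (lt_two_pow_sz q).trans_le (Nat.pow_le_pow_right two_pos (by omega)),
    by omega⟩
  rw [Nat.size_eq_bits_len, Nat.size_le, List.sum_ofFn]
  calc _ ≤ P.m * 2 ^ sz (List.ofFn P.r) := by
        simpa using sum_le_card_nsmul univ P.r (2 ^ sz (List.ofFn P.r)) fun i _ =>
          (lt_two_pow_sz _).le.trans (Nat.pow_le_pow_right two_pos (sz_mem (by simp)))
    _ < 2 ^ P.m * 2 ^ sz (List.ofFn P.r) :=
        Nat.mul_lt_mul_of_pos_right Nat.lt_two_pow_self (by positivity)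
    _ ≤ _ := by rw [← pow_add]; exact Nat.pow_le_pow_right two_pos (by omega)

theorem steps_le {L w ρ : ℕ} (l5 : 2 ≤ L) (W2 : 2 ^ w ≤ 10 * L) (hρ : L ^ 207 ≤ ρ) :
    2 ^ 26 * (2 ^ w) ^ 31 * ((2 ^ w) ^ 3 + 2 * L) ≤ ρ / (5 * w + 1) := by
  rw [Nat.le_div_iff_mul_le (by omega)]
  refine le_trans ?_ hρ
  have a : w < 2 ^ w := Nat.lt_two_pow_self
  generalize 2 ^ w = W at *
  have b : W ≤ L ^ 5 := W2.trans (by
    rw [pow_succ]
    exact Nat.mul_le_mul_right _ (le_trans (by norm_num) (Nat.pow_le_pow_left l5 4)))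
  have c : 1 ≤ W ^ 3 := Nat.one_le_pow _ _ (by omega)
  have d : W ^ 3 + 2 * L ≤ 4 * (W ^ 3 * L) := by nlinarith
  calc _ ≤ 2 ^ 26 * W ^ 31 * (4 * (W ^ 3 * L)) * (8 * W) :=
        Nat.mul_le_mul (Nat.mul_le_mul_left _ d) (by omega)
    _ = 2 ^ 31 * W ^ 35 * L := by ring
    _ ≤ L ^ 31 * (L ^ 5) ^ 35 * L :=
        Nat.mul_le_mul_right _ (Nat.mul_le_mul (Nat.pow_le_pow_left l5 _) (Nat.pow_le_pow_left b _))
    _ = _ := by ring

theorem algo_tv (P : Inst) (q : ℕ) (hq : 0 < q) (ρ : ℕ) (hρ : (encInst (P, q)).length ^ 207 ≤ ρ) :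
    1 / 2 * ∑ X ∈ P.Omega, |coinProb ρ (fun w => algo ((P, q), w) = rows X) - 1 / P.Omega.card| ≤
      1 / q := by
  obtain ⟨l1, l2, l3, l4, l5⟩ := size_bds P q
  generalize (encInst (P, q)).length = L at *
  set sb := (List.ofFn P.r).sum.bits with hsb
  set w := (db (List.ofFn P.r) (List.ofFn P.c)).length with hw
  have hw' : w = (P.m + P.n + sb.length + 1).size := by simp [hw, db, hsb, Nat.size_eq_bits_len]
  have W1 : P.m + P.n + sb.length + 1 < 2 ^ w := hw' ▸ Nat.lt_size_self _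
  have W2 : 2 ^ w ≤ 10 * L := by
    have : 0 < w := hw' ▸ Nat.size_pos.mpr (by omega)
    have h := Nat.lt_size.mp (show w - 1 < (P.m + P.n + sb.length + 1).size by omega)
    rw [show w = w - 1 + 1 by omega, pow_succ]
    omega
  have N1 : ∑ i, P.r i < 2 ^ sb.length := by
    rw [hsb, Nat.size_eq_bits_len, List.sum_ofFn]; exact Nat.lt_size_self _
  obtain ⟨X0, m0, e0⟩ := init_eq P
  set s : (Fin P.m → Fin P.n → ℕ) → ℝ := fun X =>
    if 0 ≤ coinProb ρ (fun w => algo ((P, q), w) = rows X) - 1 / P.Omega.card then 1 else -1 with hs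
  set g : List (List ℕ) → ℝ := fun l => ∑ Y ∈ P.Omega, if l = rows Y then s Y else 0 with hg
  have g1 : ∀ X ∈ Tab (fun i => (P.r i : ℤ)) fun j => (P.c j : ℤ), g (lst X) = s (toN X) := fun X hX => by
    simp only [hg, lst, rows_inj.eq_iff, sum_ite_eq]
    exact if_pos (toN_mem hX)
  have cd : ((Tab (fun i => (P.r i : ℤ)) fun j => (P.c j : ℤ)).card : ℝ) = P.Omega.card := by
    simpa using sum_Tab P fun _ => 1
  have law := run_law w sb g _ ρ rfl X0 m0
  have it := lz_iter (U := Tp (2 ^ w)) (card_pos.mp (by rw [card_Tp]; positivity))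
    (mstep_ds _ _ sb.length _) (C := 2 ^ 24 * (2 ^ w : ℕ) ^ 26)
    (one_le_mul_of_one_le_of_one_le (by norm_num) (one_le_pow₀ (by exact_mod_cast Nat.one_le_two_pow)))
    (mstep_poin _ _ (by exact_mod_cast N1.le) (by omega) (by omega) (by omega)) (fun Y => g (lst Y))
    (fun X hX => by rw [g1 X hX]; simp only [hs]; split_ifs <;> simp) (ρ / (5 * w + 1)) m0
  have tv : ∑ X ∈ P.Omega, |coinProb ρ (fun w => algo ((P, q), w) = rows X) - 1 / P.Omega.card| =
      (lz (Tp (2 ^ w)) (mstep sb.length))^[ρ / (5 * w + 1)] (fun Y => g (lst Y)) X0 -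
        mean (Tab (fun i => (P.r i : ℤ)) fun j => (P.c j : ℤ)) fun Y => g (lst Y) := by
    rw [← mul_div_cancel_left₀ ((lz _ _)^[_] _ X0) (show (2 : ℝ) ^ ρ ≠ 0 by positivity), ← law, bs_eq,
      mean, sum_congr rfl g1, sum_Tab, cd, ← e0]
    have : ∀ v : Fin ρ → Bool, (List.foldl (stepBit (2 ^ w) sb (5 * w + 1))
        (0, 0, init (List.ofFn P.r) (List.ofFn P.c)) (List.ofFn v)).2.2 = algo ((P, q), List.ofFn v) :=
      fun v => by simp only [algo, run, pw_eq, min_self, ← hw, ← hsb]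
    simp only [this, hg]
    rw [sum_comm, sum_div, sum_div, ← sum_sub_distrib]
    refine sum_congr rfl fun Y _ => ?_
    rw [← sum_filter, sum_const, nsmul_eq_mul, mul_div_right_comm, div_eq_mul_one_div (s Y),
      mul_comm (s Y), ← sub_mul]
    change _ = (coinProb ρ (fun w => algo ((P, q), w) = rows Y) - _) * _
    simp only [hs]
    split_ifs with h
    · rw [abs_of_nonneg h, mul_one]
    · rw [abs_of_neg (not_le.mp h), mul_neg_one]
  have t1 := steps_le l5 W2 hρ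
  have t2 : P.Omega.card ≤ 2 ^ (2 ^ w) ^ 3 := by
    refine (card_filter_le _ _).trans ?_
    simp only [Fintype.card_piFinset, card_range, prod_const, card_univ, Fintype.card_fin]
    refine (prod_le_pow_card _ _ ((2 ^ sb.length) ^ P.n) fun i _ => Nat.pow_le_pow_left
      ((single_le_sum (f := P.r) (fun _ _ => Nat.zero_le _) (mem_univ i)).trans_lt N1) _).trans ?_
    rw [← pow_mul, ← pow_mul, card_univ, Fintype.card_fin]
    refine Nat.pow_le_pow_right two_pos ?_
    rw [pow_three]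
    gcongr <;> omega
  have two : ∀ k : ℕ, (2 : ℝ) ^ k ≤ Real.exp k := fun k => by
    rw [← mul_one (k : ℝ), Real.exp_nat_mul]
    exact pow_le_pow_left₀ (by norm_num) (by linarith [Real.exp_one_gt_d9]) _
  have q0 : (0 : ℝ) < q := by exact_mod_cast hq
  have t3 : Real.exp (-(((ρ / (5 * w + 1) : ℕ) : ℝ) / (4 * (2 ^ 24 * (2 ^ w : ℕ) ^ 26) *
      (Tp (2 ^ w)).card))) * P.Omega.card ≤ (1 / q) ^ 2 := by
    have a : ((2 ^ w : ℕ) ^ 3 + 2 * L : ℝ) ≤ ((ρ / (5 * w + 1) : ℕ) : ℝ) /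
        (4 * (2 ^ 24 * (2 ^ w : ℕ) ^ 26) * (Tp (2 ^ w)).card) := by
      rw [card_Tp, le_div_iff₀ (by positivity)]
      refine le_trans (le_of_eq ?_) ((Nat.cast_le (α := ℝ)).mpr t1)
      push_cast
      ring
    have b : (P.Omega.card : ℝ) ≤ Real.exp ((2 ^ w : ℕ) ^ 3) :=
      le_trans (by exact_mod_cast t2) ((two ((2 ^ w) ^ 3)).trans (by rw [Nat.cast_pow]))
    have c : (q : ℝ) ≤ Real.exp L := le_trans (by exact_mod_cast l4.le) (two L)
    refine (mul_le_mul (Real.exp_le_exp.mpr (neg_le_neg a)) b (Nat.cast_nonneg _)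
      (Real.exp_pos _).le).trans ?_
    rw [← Real.exp_add, show -((2 ^ w : ℕ) ^ 3 + 2 * L : ℝ) + (2 ^ w : ℕ) ^ 3 = -L + -L by ring,
      Real.exp_add, ← sq, Real.exp_neg, one_div]
    gcongr
  rw [cd, ← tv] at it
  have := abs_le_of_sq_le_sq' (it.trans t3) (by positivity)
  have : (0 : ℝ) < 1 / q := by positivity
  linarith

end Vale.Agent.P328
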