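import Vale.Agent.P328.Peel
import Mathlib.Algebra.Order.Chebyshev

/-! Halving of large margins by conditioning on parities. -/

namespace Vale.Agent.P328

open Finset Function

set_option linter.unusedSectionVars false

section Split

variable {α : Type} [DecidableEq α]

theorem near {S G : Finset α} (h : G ⊆ S) (f : α → ℝ) {ε : ℝ} (h0 : 0 ≤ ε) (h1 : ε ≤ 1 / 2)
    (hc : (S.card : ℝ) - G.card ≤ ε * S.card) :
    S.card * (mean S f - mean G f) ^ 2 ≤ 4 * ε * Var S f := by
  have V0 := Var_nonneg S f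
  rcases S.eq_empty_or_nonempty with rfl | hn
  · simp [Var]
  have n0 : (0 : ℝ) < S.card := by exact_mod_cast hn.card_pos
  have e1 : ∑ x ∈ S \ G, (f x - mean S f) = G.card * (mean S f - mean G f) := by
    rw [sum_sdiff_eq_sub h]
    simp only [sum_sub_distrib, sum_const, nsmul_eq_mul, ← mean_mul f]
    ring
  have e2 := sq_sum_le_card_mul_sum_sq (s := S \ G) (f := fun x => f x - mean S f)
  have e3 : ∑ x ∈ S \ G, (f x - mean S f) ^ 2 ≤ Var S f :=
    sum_le_sum_of_subset_of_nonneg sdiff_subset fun _ _ _ => sq_nonneg _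
  rw [e1, card_sdiff_of_subset h, Nat.cast_sub (card_le_card h), mul_pow] at e2
  have e4 := mul_le_mul hc e3 (sum_nonneg fun _ _ => sq_nonneg _) (by positivity)
  have e7 : (S.card : ℝ) ≤ 2 * G.card := by nlinarith
  have e5 : (S.card : ℝ) ^ 2 ≤ 4 * G.card ^ 2 := by nlinarith
  have e6 := mul_le_mul_of_nonneg_right e5 (sq_nonneg (mean S f - mean G f))
  refine le_of_mul_le_mul_left ?_ n0
  nlinarith

theorem split {S0 S1 G0 : Finset α} (hd : Disjoint S0 S1) {τ : α → α} (hτ : Injective τ)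
    (g0 : G0 ⊆ S0) (g1 : G0.image τ ⊆ S1) (f δ : α → ℝ) (hf : ∀ x ∈ G0, |f (τ x) - f x| ≤ δ x)
    {ε : ℝ} (h0 : 0 ≤ ε) (h1 : ε ≤ 1 / 2) (c0 : (S0.card : ℝ) - G0.card ≤ ε * S0.card)
    (c1 : (S1.card : ℝ) - (G0.image τ).card ≤ ε * S1.card) :
    Var (S0 ∪ S1) f ≤ (1 + 8 * ε) * (Var S0 f + Var S1 f) + 4 * ∑ x ∈ S0, δ x ^ 2 := by
  refine (Var_le _ f (mean (G0.image τ) f)).trans ?_
  rw [sum_union hd, sum_sq_eq, sum_sq_eq]
  have a0 := near g0 f h0 h1 c0
  have a1 := near g1 f h0 h1 c1
  have a2 := mean_sq G0 fun x => f (τ x) + -f x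
  rw [mean_add, mean_neg, ← mean_image _ hτ] at a2
  have a3 : ∑ x ∈ G0, (f (τ x) + -f x) ^ 2 ≤ ∑ x ∈ S0, δ x ^ 2 :=
    (sum_le_sum fun x hx => sq_le_sq' (by linarith [(abs_le.mp (hf x hx)).1])
      (by linarith [(abs_le.mp (hf x hx)).2])).trans
      (sum_le_sum_of_subset_of_nonneg g0 fun _ _ _ => sq_nonneg _)
  have n0 : (0 : ℝ) ≤ S0.card := Nat.cast_nonneg _
  have a4 : (S0.card : ℝ) ≤ 2 * G0.card := by nlinarith
  have a5 := mul_le_mul_of_nonneg_right a4 (sq_nonneg (mean (G0.image τ) f + -mean G0 f))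
  have a6 := mul_le_mul_of_nonneg_left (show (mean S0 f - mean (G0.image τ) f) ^ 2 ≤
    2 * (mean S0 f - mean G0 f) ^ 2 + 2 * (mean (G0.image τ) f + -mean G0 f) ^ 2 by
      nlinarith [sq_nonneg (mean S0 f - mean G0 f + (mean (G0.image τ) f + -mean G0 f))]) n0
  have := mul_nonneg h0 (Var_nonneg S1 f)
  linarith

end Split

variable {I J : Type} [Fintype I] [Fintype J] [DecidableEq I] [DecidableEq J]

theorem add_rect_mem {r : I → ℤ} {c : J → ℤ} {X : I × J → ℤ} (h : X ∈ Tab r c) {i i' : I} {j j' : J}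
    (hi : i ≠ i') {k : ℤ} (k0 : 0 ≤ k) (h1 : k ≤ X (i, j')) (h2 : k ≤ X (i', j)) :
    X + k • rect i i' j j' ∈ Tab r c := by
  obtain ⟨x0, x1, x2⟩ := mem_Tab.mp h
  refine mem_Tab.mpr ⟨fun e => ?_, fun x => ?_, fun y => ?_⟩
  · have a := mul_nonneg k0 (add_nonneg (ev_nonneg (i, j) e) (ev_nonneg (i', j') e))
    have b : k * (ev (i, j') e + ev (i', j) e) ≤ X e := by
      have := x0 e
      simp only [ev]
      split_ifs <;> simp_all
    simp only [rect, Pi.add_apply, Pi.smul_apply, Pi.sub_apply, smul_eq_mul]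
    linarith
  · simp [rect, sum_add_distrib, sum_sub_distrib, ← mul_sum, sum_ev_row, x1]
  · simp [rect, sum_add_distrib, sum_sub_distrib, ← mul_sum, sum_ev_col, x2]

/-- tables with some parities prescribed -/
noncomputable def Par (F : Finset (I × J)) (z : I × J → ℤ) (r : I → ℤ) (c : J → ℤ) :
    Finset (I × J → ℤ) := (Tab r c).filter fun X => ∀ e ∈ F, X e % 2 = z e

theorem mem_Par {F : Finset (I × J)} {z : I × J → ℤ} {r : I → ℤ} {c : J → ℤ} {X : I × J → ℤ} :
    X ∈ Par F z r c ↔ X ∈ Tab r c ∧ ∀ e ∈ F, X e % 2 = z e := mem_filter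

theorem par_insert {F : Finset (I × J)} (z : I × J → ℤ) (r : I → ℤ) (c : J → ℤ) {e : I × J}
    (he : e ∉ F) (b : ℤ) :
    Par (insert e F) (update z e b) r c = (Par F z r c).filter fun X => X e % 2 = b := by
  ext X
  simp only [mem_filter, mem_Par, mem_insert, forall_eq_or_imp, update_self]
  have : (∀ y ∈ F, X y % 2 = update z e b y) ↔ ∀ y ∈ F, X y % 2 = z y :=
    forall₂_congr fun y hy => by rw [update_of_ne (ne_of_mem_of_not_mem hy he)]
  tauto

theorem zero_rare (F : Finset (I × J)) (z : I × J → ℤ) {r : I → ℤ} {c : J → ℤ} {k : ℕ} {i : I} {j : J}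
    (hi : (2 * k * Fintype.card J : ℤ) < r i) (hj : (2 * k * Fintype.card I : ℤ) < c j) :
    ((Par F z r c).filter fun X => X (i, j) = 0).card * k ≤
      Fintype.card (I × J) * (Par F z r c).card := by
  rcases Nat.eq_zero_or_pos k with rfl | k0
  · simp
  set Z : I × J → Finset (I × J → ℤ) := fun e => (Par F z r c).filter fun X =>
    X (i, j) = 0 ∧ 2 * k ≤ X (i, e.2) ∧ 2 * k ≤ X (e.1, j) with hZ
  have h1 : ((Par F z r c).filter fun X => X (i, j) = 0) ⊆ univ.biUnion Z := fun X hX => by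
    obtain ⟨m, x⟩ := mem_filter.mp hX
    obtain ⟨-, x1, x2⟩ := mem_Tab.mp (mem_Par.mp m).1
    obtain ⟨b, -, hb⟩ : ∃ b ∈ univ, (2 * k : ℤ) < X (i, b) :=
      exists_lt_of_sum_lt (f := fun _ => (2 * k : ℤ)) (by rw [x1]; simpa [mul_comm] using hi)
    obtain ⟨a, -, ha⟩ : ∃ a ∈ univ, (2 * k : ℤ) < X (a, j) :=
      exists_lt_of_sum_lt (f := fun _ => (2 * k : ℤ)) (by rw [x2]; simpa [mul_comm] using hj)
    exact mem_biUnion.mpr ⟨(a, b), mem_univ _, mem_filter.mpr ⟨m, x, hb.le, ha.le⟩⟩
  refine (Nat.mul_le_mul_right k ((card_le_card h1).trans card_biUnion_le)).trans ?_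
  rw [sum_mul]
  refine sum_le_card_nsmul _ _ _ fun ⟨a, b⟩ _ => ?_
  have ne : ∀ X ∈ Z (a, b), i ≠ a ∧ j ≠ b := fun X hX => by
    obtain ⟨-, x1, x2, x3⟩ := mem_filter.mp hX
    constructor <;> rintro rfl <;> dsimp only at * <;> omega
  conv_lhs => rw [← card_range k, ← card_product]
  refine card_le_card_of_injOn (fun p => p.1 + (2 * (p.2 + 1) : ℤ) • rect i a j b) ?_ ?_
  · rintro ⟨X, t⟩ h
    obtain ⟨h2, h3⟩ := mem_product.mp h
    obtain ⟨m, -, x2, x3⟩ := mem_filter.mp h2
    rw [mem_range] at h3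
    dsimp only at *
    refine mem_Par.mpr ⟨add_rect_mem (mem_Par.mp m).1 (ne X h2).1 (by omega) (by omega) (by omega),
      fun e he => ?_⟩
    rw [← (mem_Par.mp m).2 e he]
    simp only [Pi.add_apply, Pi.smul_apply, smul_eq_mul, mul_assoc]
    omega
  · rintro ⟨X, t⟩ h ⟨Y, s⟩ h' e
    obtain ⟨h2, -⟩ := mem_product.mp h
    obtain ⟨h3, -⟩ := mem_product.mp h'
    obtain ⟨n1, n2⟩ := ne X h2
    have := congrFun e (i, j)
    have a2 : X (i, j) = 0 := (mem_filter.mp h2).2.1
    have a3 : Y (i, j) = 0 := (mem_filter.mp h3).2.1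
    obtain rfl : t = s := by simpa [rect, ev, n1, n2, a2, a3] using this
    rw [show X = Y from add_left_injective _ e]

theorem par_cell {F : Finset (I × J)} (z : I × J → ℤ) {r : I → ℤ} {c : J → ℤ} {k : ℕ} {i i0 : I}
    {j j0 : J} (hF : ∀ e ∈ F, e.1 ≠ i0 ∧ e.2 ≠ j0) (he : (i, j) ∉ F) (hi : i ≠ i0) (hj : j ≠ j0)
    (r1 : (2 * k * Fintype.card J : ℤ) < r i) (r2 : (2 * k * Fintype.card J : ℤ) < r i0)
    (c1 : (2 * k * Fintype.card I : ℤ) < c j) (c2 : (2 * k * Fintype.card I : ℤ) < c j0)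
    {ε C : ℝ} (h0 : 0 ≤ ε) (h1 : ε ≤ 1 / 2) (hk : 0 < k) (hε : 2 * Fintype.card (I × J) ≤ ε * k)
    {L : ℕ} (hL : 1 ≤ L) (h : ∀ b, Poin (Par (insert (i, j) F) (update z (i, j) b) r c) L C) :
    Poin (Par F z r c) L ((1 + 8 * ε) * C + 4) := by
  intro f δ hG
  have zr : ∀ b (x : I) (y : J), (2 * k * Fintype.card J : ℤ) < r x →
      (2 * k * Fintype.card I : ℤ) < c y →
      2 * (((Par (insert (i, j) F) (update z (i, j) b) r c).filter fun X => X (x, y) = 0).card : ℝ) ≤
        ε * (Par (insert (i, j) F) (update z (i, j) b) r c).card := fun b x y p q => by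
    have := (Nat.cast_le (α := ℝ)).mpr (zero_rare (insert (i, j) F) (update z (i, j) b) p q)
    rw [Nat.cast_mul, Nat.cast_mul] at this
    refine le_of_mul_le_mul_right ?_ (show (0 : ℝ) < k by exact_mod_cast hk)
    nlinarith [mul_le_mul_of_nonneg_right hε
      (Nat.cast_nonneg (α := ℝ) (Par (insert (i, j) F) (update z (i, j) b) r c).card)]
  have p0 := h 0 f δ hG
  have p1 := h 1 f δ hG
  have z1 := zr 0 i j0 r1 c2
  have z2 := zr 0 i0 j r2 c1
  have z3 := zr 1 i0 j0 r2 c2
  simp only [par_insert _ _ _ he] at p0 p1 z1 z2 z3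
  set S0 := (Par F z r c).filter fun X => X (i, j) % 2 = 0 with hS0
  set S1 := (Par F z r c).filter fun X => X (i, j) % 2 = 1 with hS1
  have hd : Disjoint S0 S1 := disjoint_filter.mpr fun _ _ _ => by omega
  have hu : Par F z r c = S0 ∪ S1 := by
    rw [hS0, hS1, ← filter_or, filter_true_of_mem fun _ _ => by omega]
  have rF : ∀ e ∈ F, rect i i0 j j0 e = 0 := fun ⟨x, y⟩ hx => by
    have : ¬(x = i ∧ y = j) := by rintro ⟨rfl, rfl⟩; exact he hx
    have a1 : x ≠ i0 := (hF _ hx).1
    have a2 : y ≠ j0 := (hF _ hx).2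
    simp [rect, ev, a1, a2, this]
  have g1 : (S0.filter fun X => 1 ≤ X (i, j0) ∧ 1 ≤ X (i0, j)).image (· + rect i i0 j j0) =
      S1.filter fun X => 1 ≤ X (i0, j0) := by
    ext Y
    simp only [hS0, hS1, mem_image, mem_filter, mem_Par]
    constructor
    · rintro ⟨X, ⟨⟨⟨x1, x2⟩, x3⟩, x4, x5⟩, rfl⟩
      have := (mem_Tab.mp x1).1 (i0, j0)
      refine ⟨⟨⟨by simpa using add_rect_mem x1 hi zero_le_one x4 x5, fun e h => by
        simp [rF e h, x2 e h]⟩, ?_⟩, ?_⟩ <;> simp [rect, ev, hi, hj, hi.symm, hj.symm] <;> omega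
    · rintro ⟨⟨⟨x1, x2⟩, x3⟩, x4⟩
      have := (mem_Tab.mp x1).1 (i, j)
      have := (mem_Tab.mp x1).1 (i0, j)
      have := (mem_Tab.mp x1).1 (i, j0)
      refine ⟨Y - rect i i0 j j0, ⟨⟨⟨?_, fun e h => by simp [rF e h, x2 e h]⟩, ?_⟩, ?_, ?_⟩, by abel⟩
      · have := add_rect_mem x1 (j := j0) (j' := j) hi zero_le_one (by omega) x4
        rwa [show Y + (1 : ℤ) • rect i i0 j0 j = Y - rect i i0 j j0 by simp only [rect]; module] at this
      all_goals simp [rect, ev, hi, hj, hi.symm, hj.symm]; omega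
  have := split hd (add_left_injective (rect i i0 j j0))
    (filter_subset (fun X => 1 ≤ X (i, j0) ∧ 1 ≤ X (i0, j)) S0) (g1 ▸ filter_subset _ _) f δ
    (fun X hX => (hG.mono hL).one X hi hj (mem_filter.mp hX).2.1 (mem_filter.mp hX).2.2) h0 h1 ?_ ?_
  · rw [hu, sum_union hd]
    have : 0 ≤ ∑ X ∈ S1, δ X ^ 2 := sum_nonneg fun _ _ => sq_nonneg _
    nlinarith [mul_le_mul_of_nonneg_left (add_le_add p0 p1) (show 0 ≤ 1 + 8 * ε by linarith)]
  · have : S0.card ≤ (S0.filter fun X => 1 ≤ X (i, j0) ∧ 1 ≤ X (i0, j)).card +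
        ((S0.filter fun X => X (i, j0) = 0).card + (S0.filter fun X => X (i0, j) = 0).card) := by
      refine le_trans (card_le_card fun X hX => ?_) ((card_union_le _ _).trans
        (Nat.add_le_add_left (card_union_le _ _) _))
      have a := (mem_Tab.mp (mem_Par.mp (mem_filter.mp hX).1).1).1
      have := a (i, j0)
      have := a (i0, j)
      simp only [mem_union, mem_filter (s := S0), hX, true_and]
      omega
    have := (Nat.cast_le (α := ℝ)).mpr this
    rw [Nat.cast_add, Nat.cast_add] at this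
    linarith
  · have : S1.card ≤ (S1.filter fun X => 1 ≤ X (i0, j0)).card +
        (S1.filter fun X => X (i0, j0) = 0).card := by
      refine le_trans (card_le_card fun X hX => ?_) (card_union_le _ _)
      have := (mem_Tab.mp (mem_Par.mp (mem_filter.mp hX).1).1).1 (i0, j0)
      simp only [mem_union, mem_filter (s := S1), hX, true_and]
      omega
    have := (Nat.cast_le (α := ℝ)).mpr this
    rw [Nat.cast_add] at this
    rw [g1]
    linarith [Nat.cast_nonneg (α := ℝ) (S1.filter fun X => X (i0, j0) = 0).card]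

theorem halve {r : I → ℤ} {c : J → ℤ} {k : ℕ} {i0 : I} {j0 : J} (hi : r i0 ≠ 0) (hj : c j0 ≠ 0)
    (hr : ∀ i, r i ≠ 0 → (2 * k * Fintype.card J : ℤ) < r i)
    (hc : ∀ j, c j ≠ 0 → (2 * k * Fintype.card I : ℤ) < c j)
    {ε C : ℝ} (h0 : 0 ≤ ε) (h1 : ε ≤ 1 / 2) (hk : 0 < k) (hε : 2 * Fintype.card (I × J) ≤ ε * k)
    (hC : 0 ≤ C) {L : ℕ}
    (h : ∀ W ∈ Tab r c, Poin (Tab (fun i => ∑ j, W (i, j) / 2) fun j => ∑ i, W (i, j) / 2) L C) :
    Poin (Tab r c) (L + 1) ((1 + 8 * ε) ^ Fintype.card (I × J) * (C + 4 * Fintype.card (I × J))) := by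
  set Fr : Finset (I × J) := univ.filter fun e => e.1 ≠ i0 ∧ e.2 ≠ j0 ∧ r e.1 ≠ 0 ∧ c e.2 ≠ 0 with hFr
  have key : ∀ n : ℕ, ∀ (F : Finset (I × J)) (z : I × J → ℤ), F ⊆ Fr → (Fr \ F).card = n →
      Poin (Par F z r c) (L + 1) ((1 + 8 * ε) ^ n * (C + 4 * n)) := by
    intro n
    induction n with
    | zero =>
      intro F z hF hn
      obtain rfl : F = Fr := hF.antisymm (by simpa using hn)
      rcases (Par Fr z r c).eq_empty_or_nonempty with e | ⟨W, hW⟩
      · rw [e]; intro f δ _; simp [Var]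
      obtain ⟨mW, pW⟩ := mem_Par.mp hW
      obtain ⟨w0, w1, w2⟩ := mem_Tab.mp mW
      have inj : Injective fun Y : I × J → ℤ => (fun e => W e % 2) + (2 : ℤ) • Y := fun a b e =>
        smul_right_injective _ two_ne_zero (add_left_cancel e)
      have e : Par Fr z r c = (Tab (fun i => ∑ j, W (i, j) / 2) fun j => ∑ i, W (i, j) / 2).image
          fun Y => (fun e => W e % 2) + (2 : ℤ) • Y := by
        ext X
        simp only [mem_image, mem_Par, mem_Tab]
        constructor
        · rintro ⟨⟨x0, x1, x2⟩, x3⟩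
          have a1 : ∀ i j, i ≠ i0 → j ≠ j0 → 2 ∣ X (i, j) - W (i, j) := fun i j p q => by
            have := x0 (i, j)
            have := w0 (i, j)
            by_cases u : r i = 0
            · have := le_row x0 i j
              have := le_row w0 i j
              have := x1 i
              have := w1 i
              omega
            by_cases v : c j = 0
            · have := le_col x0 i j
              have := le_col w0 i j
              have := x2 j
              have := w2 j
              omega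
            have m : (i, j) ∈ Fr := by simp [hFr, p, q, u, v]
            have := x3 _ m
            have := pW _ m
            omega
          have a2 : ∀ i j, i ≠ i0 → 2 ∣ X (i, j) - W (i, j) := fun i j p => by
            by_cases q : j = j0
            · subst q
              have s : ∑ y, (X (i, y) - W (i, y)) = 0 := by rw [sum_sub_distrib, x1, w1, sub_self]
              rw [← add_sum_erase _ _ (mem_univ j)] at s
              have := dvd_sum fun y (hy : y ∈ univ.erase j) => a1 i y p (ne_of_mem_erase hy)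
              omega
            · exact a1 i j p q
          have a3 : ∀ i j, 2 ∣ X (i, j) - W (i, j) := fun i j => by
            by_cases q : i = i0
            · subst q
              have s : ∑ y, (X (y, j) - W (y, j)) = 0 := by rw [sum_sub_distrib, x2, w2, sub_self]
              rw [← add_sum_erase _ _ (mem_univ i)] at s
              have := dvd_sum fun y (hy : y ∈ univ.erase i) => a2 y j (ne_of_mem_erase hy)
              omega
            · exact a2 i j q
          have a4 : ∀ e, 2 * (X e / 2) = 2 * (W e / 2) + (X e - W e) := fun ⟨i, j⟩ => by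
            have := a3 i j
            omega
          refine ⟨fun e => X e / 2, ⟨fun e => ?_, fun i => ?_, fun j => ?_⟩, funext fun ⟨i, j⟩ => ?_⟩
          · have := x0 e
            dsimp only
            omega
          · refine mul_left_cancel₀ two_ne_zero ?_
            simp only [mul_sum, a4, sum_add_distrib, sum_sub_distrib, x1, w1, sub_self, add_zero]
          · refine mul_left_cancel₀ two_ne_zero ?_
            simp only [mul_sum, a4, sum_add_distrib, sum_sub_distrib, x2, w2, sub_self, add_zero]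
          · have := a3 i j
            simp only [Pi.add_apply, Pi.smul_apply, smul_eq_mul]
            omega
        · rintro ⟨Y, ⟨y0, y1, y2⟩, rfl⟩
          have a4 : ∀ e, W e % 2 = W e - 2 * (W e / 2) := fun e => by omega
          refine ⟨⟨fun e => ?_, fun i => ?_, fun j => ?_⟩, fun e he => ?_⟩ <;>
            simp only [Pi.add_apply, Pi.smul_apply, smul_eq_mul]
          · have := y0 e
            omega
          · simp only [a4, sum_add_distrib, sum_sub_distrib, ← mul_sum, y1, w1, sub_add_cancel]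
          · simp only [a4, sum_add_distrib, sum_sub_distrib, ← mul_sum, y2, w2, sub_add_cancel]
          · have := pW e he
            omega
      intro f δ hG
      rw [e, Var_image _ inj, sum_image inj.injOn]
      simp only [pow_zero, Nat.cast_zero, mul_zero, add_zero, one_mul]
      refine h W mW _ _ ⟨fun _ => hG.1 _, fun X i i' j j' l a b c d e => ?_⟩
      have := hG.2 ((fun e => W e % 2) + (2 : ℤ) • X) i i' j j' (l + 1) (by omega) b c
        (by simp only [Pi.add_apply, Pi.smul_apply, smul_eq_mul, pow_succ]; omega)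
        (by simp only [Pi.add_apply, Pi.smul_apply, smul_eq_mul, pow_succ]; omega)
      rwa [show (fun e => W e % 2) + (2 : ℤ) • X + (2 ^ (l + 1) : ℤ) • rect i i' j j' =
        (fun e => W e % 2) + (2 : ℤ) • (X + (2 ^ l : ℤ) • rect i i' j j') by module] at this
    | succ n ih =>
      intro F z hF hn
      obtain ⟨⟨i, j⟩, hm⟩ : (Fr \ F).Nonempty := card_pos.mp (by omega)
      obtain ⟨m1, m2⟩ := mem_sdiff.mp hm
      obtain ⟨p1, p2, p3, p4⟩ := (mem_filter.mp m1).2
      refine (par_cell z (fun e he => ⟨(mem_filter.mp (hF he)).2.1, (mem_filter.mp (hF he)).2.2.1⟩) m2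
        p1 p2 (hr _ p3) (hr _ hi) (hc _ p4) (hc _ hj) h0 h1 hk hε (by omega)
        fun b => ih _ _ (insert_subset m1 hF) ?_).mono ?_
      · rw [sdiff_insert, card_erase_of_mem hm, hn]
        rfl
      · have : 1 ≤ (1 + 8 * ε) ^ (n + 1) := one_le_pow₀ (by linarith)
        rw [pow_succ] at *
        push_cast
        linarith
  have := key _ ∅ 0 (empty_subset _) rfl
  rw [show Par ∅ 0 r c = Tab r c by simp [Par]] at this
  have a : (Fr \ ∅).card ≤ Fintype.card (I × J) := card_le_univ _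
  refine this.mono (mul_le_mul (pow_le_pow_right₀ (by linarith) a) ?_ (by positivity) (by positivity))
  have : ((Fr \ ∅).card : ℝ) ≤ Fintype.card (I × J) := by exact_mod_cast a
  linarith

end Vale.Agent.P328
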