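import Vale.Agent.P328.Trans
import Mathlib.Analysis.SpecialFunctions.Sqrt

/-! Variance decomposition; removal of a small row. -/

namespace Vale.Agent.P328

open Finset Function

set_option linter.unusedSectionVars false

section Var

variable {α β : Type}

noncomputable def Var (S : Finset α) (f : α → ℝ) : ℝ := ∑ x ∈ S, (f x - mean S f) ^ 2

theorem Var_nonneg (S : Finset α) (f : α → ℝ) : 0 ≤ Var S f := sum_nonneg fun _ _ => sq_nonneg _

theorem sum_sq_eq (S : Finset α) (f : α → ℝ) (θ : ℝ) :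
    ∑ x ∈ S, (f x - θ) ^ 2 = Var S f + S.card * (mean S f - θ) ^ 2 := by
  have : ∀ x, (f x - θ) ^ 2 = (f x - mean S f) ^ 2 + 2 * (mean S f - θ) * f x +
      (θ ^ 2 - mean S f ^ 2) := fun x => by ring
  simp only [this, sum_add_distrib, ← mul_sum, sum_const, nsmul_eq_mul, ← mean_mul f, Var]
  ring

theorem Var_le (S : Finset α) (f : α → ℝ) (θ : ℝ) : Var S f ≤ ∑ x ∈ S, (f x - θ) ^ 2 := by
  rw [sum_sq_eq]
  exact le_add_of_nonneg_right (by positivity)

theorem Var_image [DecidableEq β] (S : Finset α) {ψ : α → β} (h : Injective ψ) (f : β → ℝ) :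
    Var (S.image ψ) f = Var S fun x => f (ψ x) := by
  rw [Var, Var, mean_image _ h, sum_image h.injOn]

theorem mean_sq (S : Finset α) (f : α → ℝ) : S.card * mean S f ^ 2 ≤ ∑ x ∈ S, f x ^ 2 := by
  have := sum_sq_eq S f 0
  simp only [sub_zero] at this
  linarith [Var_nonneg S f]

theorem chain_sq (μ : ℤ → ℝ) {w B : ℝ} (hw : 0 ≤ w) (hB : 0 ≤ B) {x y : ℤ} (hxy : x ≤ y)
    (h : ∀ s, x ≤ s → s < y → w * (μ (s + 1) - μ s) ^ 2 ≤ B) :
    w * (μ y - μ x) ^ 2 ≤ (y - x) ^ 2 * B := by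
  rcases hw.eq_or_lt with rfl | hw
  · rw [zero_mul]; positivity
  have key : ∀ k : ℕ, x + k ≤ y → |μ (x + k) - μ x| ≤ k * √(B / w) := by
    intro k
    induction k with
    | zero => simp
    | succ k ih =>
      intro hk
      have h1 := ih (by omega)
      have h2 : |μ (x + k + 1) - μ (x + k)| ≤ √(B / w) :=
        Real.abs_le_sqrt (by rw [le_div_iff₀ hw, mul_comm]; exact h _ (by omega) (by omega))
      push_cast
      rw [← add_assoc]
      linarith [abs_sub_le (μ (x + k + 1)) (μ (x + k)) (μ x)]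
  have := key (y - x).toNat (by omega)
  rw [show x + (y - x).toNat = y by omega, ← Int.cast_natCast, Int.toNat_of_nonneg (by omega)] at this
  have := pow_le_pow_left₀ (abs_nonneg _) this 2
  rw [sq_abs, mul_pow, Real.sq_sqrt (by positivity), ← mul_div_assoc, le_div_iff₀ hw] at this
  push_cast at this
  linarith

end Var

variable {I J : Type} [Fintype I] [Fintype J] [DecidableEq I] [DecidableEq J]

/-- Poincare inequality -/
def Poin (S : Finset (I × J → ℤ)) (L : ℕ) (C : ℝ) : Prop :=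
  ∀ f δ, Grad L f δ → Var S f ≤ C * ∑ X ∈ S, δ X ^ 2

theorem Poin.mono {S : Finset (I × J → ℤ)} {L : ℕ} {C C' : ℝ} (h : Poin S L C) (hC : C ≤ C') :
    Poin S L C' := fun f δ hG =>
  (h f δ hG).trans (mul_le_mul_of_nonneg_right hC (sum_nonneg fun _ _ => sq_nonneg _))

theorem Poin.shift {S : Finset (I × J → ℤ)} {L : ℕ} {C : ℝ} (h : Poin S L C) {Z : I × J → ℤ}
    (hZ : ∀ e, 0 ≤ Z e) : Poin (S.image (· + Z)) L C := fun f δ hG => by
  rw [Var_image _ (add_left_injective _), sum_image (add_left_injective _).injOn]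
  exact h _ _ (hG.shift hZ)

theorem pin_insert (i : I) {J0 : Finset J} (a : J → ℤ) (r : I → ℤ) (c : J → ℤ) {j : J} (hj : j ∉ J0)
    (t : ℤ) : Pin i (insert j J0) (update a j t) r c = (Pin i J0 a r c).filter fun X => X (i, j) = t := by
  ext X
  simp only [mem_filter, mem_Pin, mem_insert, forall_eq_or_imp, update_self]
  have : (∀ y ∈ J0, X (i, y) = update a j t y) ↔ ∀ y ∈ J0, X (i, y) = a y :=
    forall₂_congr fun y hy => by rw [update_of_ne (ne_of_mem_of_not_mem hy hj)]
  tauto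

theorem sub_ev_mem {ρ : I → ℤ} {d : J → ℤ} {i : I} {k : J} {W : I × J → ℤ} (h : W ∈ Tab ρ d)
    (h1 : 1 ≤ W (i, k)) : W - ev (i, k) ∈ Tab (ρ - ev i) (d - ev k) := by
  obtain ⟨h0, h2, h3⟩ := mem_Tab.mp h
  refine mem_Tab.mpr ⟨fun e => ?_, fun x => by simp [sum_sub_distrib, sum_ev_row, h2],
    fun y => by simp [sum_sub_distrib, sum_ev_col, h3]⟩
  have := h0 e
  simp only [Pi.sub_apply, ev]
  split_ifs with h
  · subst h; omega
  · omega

theorem adj (i : I) (J0 : Finset J) (a : J → ℤ) (r : I → ℤ) (c : J → ℤ) {j : J} (hj : j ∉ J0)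
    {f δ : (I × J → ℤ) → ℝ} (hG : Grad 1 f δ) (t : ℤ) :
    min ((Pin i J0 a r c).filter fun X => X (i, j) = t).card
      ((Pin i J0 a r c).filter fun X => X (i, j) = t + 1).card *
      (mean ((Pin i J0 a r c).filter fun X => X (i, j) = t + 1) f -
        mean ((Pin i J0 a r c).filter fun X => X (i, j) = t) f) ^ 2 ≤
      (2 + 2 * (Fintype.card I * Fintype.card (I × J)) ^ 2) * ∑ X ∈ Pin i J0 a r c, δ X ^ 2 := by
  set S0 := (Pin i J0 a r c).filter fun X => X (i, j) = t with hS0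
  set S1 := (Pin i J0 a r c).filter fun X => X (i, j) = t + 1 with hS1
  set D := ∑ X ∈ Pin i J0 a r c, δ X ^ 2 with hD
  set M : ℝ := Fintype.card I * Fintype.card (I × J) with hM
  have D0 : 0 ≤ D := sum_nonneg fun _ _ => sq_nonneg _
  rcases S0.eq_empty_or_nonempty with e | n0
  · rw [e]; simp; positivity
  rcases S1.eq_empty_or_nonempty with e | n1
  · rw [e]; simp; positivity
  have t0 : 0 ≤ t := by
    obtain ⟨X, hX⟩ := n0
    rw [← (mem_filter.mp hX).2]
    exact (mem_Tab.mp (mem_Pin.mp (mem_filter.mp hX).1).1).1 _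
  have e1 : S1 = (Pin i (insert j J0) (update a j t) (r - ev i) (c - ev j)).image (· + ev (i, j)) := by
    rw [pin_insert _ _ _ _ hj]
    ext X
    have hv : ∀ y ∈ J0, ev (i, j) (i, y) = 0 := fun y hy => by
      simp [ev, ne_of_mem_of_not_mem hy hj]
    simp only [hS1, mem_filter, mem_image, mem_Pin]
    constructor
    · rintro ⟨⟨h1, h2⟩, h3⟩
      exact ⟨X - ev (i, j), ⟨⟨sub_ev_mem h1 (by omega), fun y hy => by simp [hv y hy, h2 y hy]⟩,
        by simp [ev, h3]⟩, by abel⟩
    · rintro ⟨Y, ⟨⟨h1, h2⟩, h3⟩, rfl⟩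
      exact ⟨⟨by simpa using add_ev_mem i j h1, fun y hy => by simp [hv y hy, h2 y hy]⟩,
        by simp [ev, h3]⟩
  have key : ∀ f, Grad 1 f δ → mean S0 f - M * mean S0 δ ≤ mean S1 f + mean S1 δ := fun f hG => by
    have := t_row (tst (Fintype.card I)) (ρ := r - ev i) (d := c - ev j) (i := i) (k := j)
      (J1 := insert j J0) (a := update a j t) hG (card_le_univ _) (Nonempty.of_image (e1 ▸ n1))
      (by simpa [pin_insert _ _ _ _ hj] using n0)
    rw [sub_add_cancel, sub_add_cancel, pin_insert _ a r c hj, ← hS0,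
      ← mean_image _ (add_left_injective (ev (i, j))) fun U => f U + δ U, ← e1, mean_add] at this
    simp only [sub_eq_add_neg] at this ⊢
    rwa [mean_add, mean_neg, mean_smul] at this
  have k1 := key f hG
  have k2 := key _ hG.neg
  rw [mean_neg, mean_neg] at k2
  have q0 := (mean_sq S0 δ).trans (sum_le_sum_of_subset_of_nonneg (filter_subset _ _)
    fun _ _ _ => sq_nonneg _)
  have q1 := (mean_sq S1 δ).trans (sum_le_sum_of_subset_of_nonneg (filter_subset _ _)
    fun _ _ _ => sq_nonneg _)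
  have h1 : (mean S1 f - mean S0 f) ^ 2 ≤ (mean S1 δ + M * mean S0 δ) ^ 2 :=
    sq_le_sq' (by linarith) (by linarith)
  have h2 : (mean S1 f - mean S0 f) ^ 2 ≤ 2 * mean S1 δ ^ 2 + 2 * M ^ 2 * mean S0 δ ^ 2 := by
    nlinarith [sq_nonneg (mean S1 δ - M * mean S0 δ)]
  have m0 : ((min S0.card S1.card : ℕ) : ℝ) ≤ S0.card := by exact_mod_cast min_le_left _ _
  have m1 : ((min S0.card S1.card : ℕ) : ℝ) ≤ S1.card := by exact_mod_cast min_le_right _ _
  have a0 := (mul_le_mul_of_nonneg_right m0 (sq_nonneg (mean S0 δ))).trans q0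
  have a1 := (mul_le_mul_of_nonneg_right m1 (sq_nonneg (mean S1 δ))).trans q1
  have a2 := mul_le_mul_of_nonneg_left h2 (Nat.cast_nonneg (α := ℝ) (min S0.card S1.card))
  have a3 := mul_le_mul_of_nonneg_left a0 (sq_nonneg M)
  linarith

variable (I J) in
/-- the cost of one cell -/
def cA (T : ℕ) : ℝ := (T + 1) * (T ^ 2 * (2 + 2 * (Fintype.card I * Fintype.card (I × J)) ^ 2))

theorem cA_nonneg (T : ℕ) : 0 ≤ cA I J T := by unfold cA; positivity

theorem peel_cell (i : I) {J0 : Finset J} (a : J → ℤ) {r : I → ℤ} (c : J → ℤ) {j : J} (hj : j ∉ J0)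
    {T L : ℕ} (hL : 1 ≤ L) (hT : r i ≤ T) {C : ℝ}
    (h : ∀ t, Poin (Pin i (insert j J0) (update a j t) r c) L C) :
    Poin (Pin i J0 a r c) L (C + cA I J T) := by
  intro f δ hG
  simp only [pin_insert _ _ _ _ hj] at h
  set S := Pin i J0 a r c with hS
  set D := ∑ X ∈ S, δ X ^ 2 with hD
  have D0 : 0 ≤ D := sum_nonneg fun _ _ => sq_nonneg _
  obtain ⟨t0, m0, h0⟩ := exists_max_image (Icc (0 : ℤ) T) (fun t => (S.filter fun X => X (i, j) = t).card)
    ⟨0, by simp⟩
  have mp : ∀ X ∈ S, X (i, j) ∈ Icc (0 : ℤ) T := fun X hX => by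
    obtain ⟨x0, x1, -⟩ := mem_Tab.mp (mem_Pin.mp hX).1
    have := le_row x0 i j
    rw [x1] at this
    exact mem_Icc.mpr ⟨x0 _, by omega⟩
  refine (Var_le S f (mean (S.filter fun X => X (i, j) = t0) f)).trans ?_
  rw [← sum_fiberwise_of_maps_to mp, add_mul]
  simp only [sum_sq_eq, sum_add_distrib]
  refine add_le_add ?_ ?_
  · rw [hD, ← sum_fiberwise_of_maps_to mp, mul_sum]
    exact sum_le_sum fun t _ => h t f δ hG
  rw [cA, mul_assoc, show (T + 1 : ℝ) = (Icc (0 : ℤ) T).card by simp, ← nsmul_eq_mul]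
  refine sum_le_card_nsmul _ _ _ fun t ht => ?_
  have b : ∀ x y : ℤ, x ∈ Icc (0 : ℤ) T → y ∈ Icc (0 : ℤ) T → x ≤ y →
      (S.filter fun X => X (i, j) = t).card ≤ (S.filter fun X => X (i, j) = x).card →
      (S.filter fun X => X (i, j) = t).card ≤ (S.filter fun X => X (i, j) = y).card →
      (S.filter fun X => X (i, j) = t).card * (mean (S.filter fun X => X (i, j) = y) f -
        mean (S.filter fun X => X (i, j) = x) f) ^ 2 ≤
      T ^ 2 * (2 + 2 * (Fintype.card I * Fintype.card (I × J)) ^ 2) * D := by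
    intro x y hx hy hxy n1 n2
    refine (chain_sq (fun t => mean (S.filter fun X => X (i, j) = t) f) (Nat.cast_nonneg _)
      (B := (2 + 2 * (Fintype.card I * Fintype.card (I × J)) ^ 2) * D) (by positivity) hxy
      fun s s1 s2 => le_trans (mul_le_mul_of_nonneg_right ?_ (sq_nonneg _))
        (adj i J0 a r c hj (hG.mono hL) s)).trans ?_
    · have := pin_quasi i J0 a r c j s1 s2.le
      have := pin_quasi i J0 a r c j (x := x) (y := s + 1) (z := y) (by omega) (by omega)
      rw [← hS] at *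
      norm_cast
      omega
    · rw [mul_assoc]
      refine mul_le_mul_of_nonneg_right (pow_le_pow_left₀ ?_ ?_ 2) (by positivity) <;> norm_cast <;>
        rw [mem_Icc] at hx hy <;> omega
  rcases le_total t t0 with e | e
  · rw [← neg_sub, neg_sq]; exact b t t0 ht m0 e le_rfl (h0 t ht)
  · exact b t0 t m0 ht e (h0 t ht) le_rfl

theorem peel_row (i : I) {r : I → ℤ} {c : J → ℤ} {T L : ℕ} (hL : 1 ≤ L) (hT : r i ≤ T) {C : ℝ}
    (h : ∀ W ∈ Tab r c, Poin (Tab (update r i 0) (c - row i W)) L C) :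
    Poin (Tab r c) L (C + Fintype.card J * cA I J T) := by
  have key : ∀ n : ℕ, ∀ (J0 : Finset J) (a : J → ℤ), J0ᶜ.card = n →
      Poin (Pin i J0 a r c) L (C + n * cA I J T) := by
    intro n
    induction n with
    | zero =>
      intro J0 a hn
      obtain rfl : J0 = univ := by simpa using hn
      rcases (Pin i univ a r c).eq_empty_or_nonempty with e | ⟨W, hW⟩
      · rw [e]; intro f δ _; simp [Var]
      have := pin_fiber hW
      rw [filter_true_of_mem (p := fun y => row i y = row i W) fun X hX => funext fun y =>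
        ((mem_Pin.mp hX).2 y (mem_univ _)).trans ((mem_Pin.mp hW).2 y (mem_univ _)).symm] at this
      rw [this]
      exact ((h W (mem_Pin.mp hW).1).shift
        (rowE_nonneg fun _ => (mem_Tab.mp (mem_Pin.mp hW).1).1 _)).mono (by simp)
    | succ n ih =>
      intro J0 a hn
      obtain ⟨j, hj⟩ : J0ᶜ.Nonempty := card_pos.mp (by omega)
      refine (peel_cell i a c (mem_compl.mp hj) hL hT fun t => ih _ _ ?_).mono (by push_cast; linarith)
      rw [compl_insert, card_erase_of_mem hj, hn]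
      rfl
  simpa [Pin] using key _ ∅ 0 rfl

/-- transposition -/
def tr (X : J × I → ℤ) : I × J → ℤ := fun e => X (e.2, e.1)

theorem tr_inj : Injective (tr : (J × I → ℤ) → I × J → ℤ) := fun _ _ h =>
  funext fun e => congrFun h (e.2, e.1)

theorem Poin.transp {r : I → ℤ} {c : J → ℤ} {L : ℕ} {C : ℝ} (h : Poin (Tab c r) L C) :
    Poin (Tab r c) L C := by
  have e : Tab r c = (Tab c r).image tr := by
    ext X
    simp only [mem_image, mem_Tab]
    constructor
    · rintro ⟨h0, h1, h2⟩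
      exact ⟨tr X, ⟨fun _ => h0 _, h2, h1⟩, rfl⟩
    · rintro ⟨Y, ⟨h0, h1, h2⟩, rfl⟩
      exact ⟨fun _ => h0 _, h2, h1⟩
  intro f δ hG
  rw [e, Var_image _ tr_inj, sum_image tr_inj.injOn]
  refine h _ _ ⟨fun _ => hG.1 _, fun X j j' i i' l a b c d e => ?_⟩
  have := hG.2 (tr X) i i' j j' l a c b e d
  rwa [show tr X + (2 ^ l : ℤ) • rect i i' j j' = tr (X + (2 ^ l : ℤ) • rect j j' i i') by
    funext ⟨x, y⟩
    simp only [tr, rect, ev, Pi.add_apply, Pi.smul_apply, Pi.sub_apply, Prod.mk.injEq, and_comm]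
    ring] at this

end Vale.Agent.P328
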