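import Vale.Agent.P328.Parity
import Mathlib.Analysis.SpecialFunctions.Exp
import Mathlib.Analysis.Complex.ExponentialBounds

/-! The Poincare inequality for all margins. -/

namespace Vale.Agent.P328

open Finset Function

set_option linter.unusedSectionVars false

variable {I J : Type} [Fintype I] [Fintype J] [DecidableEq I] [DecidableEq J]

theorem row_zero {r : I → ℤ} {c : J → ℤ} {W : I × J → ℤ} (h : W ∈ Tab r c) {i : I} (hi : r i = 0)
    (j : J) : W (i, j) = 0 := by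
  obtain ⟨w0, w1, -⟩ := mem_Tab.mp h
  have := le_row w0 i j
  have := w0 (i, j)
  have := w1 i
  omega

theorem col_zero {r : I → ℤ} {c : J → ℤ} {W : I × J → ℤ} (h : W ∈ Tab r c) {j : J} (hj : c j = 0)
    (i : I) : W (i, j) = 0 := by
  obtain ⟨w0, -, w1⟩ := mem_Tab.mp h
  have := le_col w0 i j
  have := w0 (i, j)
  have := w1 j
  omega

theorem poin_aux {k0 : ℕ} {ε A : ℝ} (h0 : 0 ≤ ε) (h1 : ε ≤ 1 / 2) (hk : 0 < k0)
    (hε : 2 * Fintype.card (I × J) ≤ ε * k0)
    (a1 : Fintype.card J * cA I J (2 * k0 * (Fintype.card I + Fintype.card J)) ≤ A)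
    (a2 : Fintype.card I * cA J I (2 * k0 * (Fintype.card I + Fintype.card J)) ≤ A) (n : ℕ) :
    ∀ (k q : ℕ) (r : I → ℤ) (c : J → ℤ), k + q = n → nz r + nz c ≤ q → ∑ i, r i ≤ 2 ^ k →
      Poin (Tab r c) (k + 1) ((1 + 8 * ε) ^ (Fintype.card (I × J) * k) *
        (q * A + 4 * Fintype.card (I × J) * k)) := by
  have A0 : 0 ≤ A := le_trans (mul_nonneg (Nat.cast_nonneg _) (cA_nonneg _)) a1
  set T := 2 * k0 * (Fintype.card I + Fintype.card J) with hT
  induction n using Nat.strong_induction_on with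
  | _ n ih =>
  intro k q r c hn hq hs
  rcases (Tab r c).eq_empty_or_nonempty with e | ⟨W, hW⟩
  · rw [e]; intro f δ _; simp [Var]
  obtain ⟨w0, w1, w2⟩ := mem_Tab.mp hW
  have r0 : ∀ i, 0 ≤ r i := fun i => w1 i ▸ sum_nonneg fun _ _ => w0 _
  have c0 : ∀ j, 0 ≤ c j := fun j => w2 j ▸ sum_nonneg fun _ _ => w0 _
  have one : 1 ≤ (1 + 8 * ε) ^ (Fintype.card (I × J) * k) := one_le_pow₀ (by linarith)
  by_cases c1 : ∃ i, r i ≠ 0 ∧ r i ≤ T
  · obtain ⟨i, p1, p2⟩ := c1
    have := nz_update p1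
    obtain ⟨q, rfl⟩ : ∃ q', q = q' + 1 := ⟨q - 1, by omega⟩
    refine (peel_row i (by omega) p2 fun X hX => ih _ (by omega) k q _ _ rfl ?_ ?_).mono ?_
    · have := nz_mono (r := c) (r' := c - row i X) fun j hj => by simp [row, hj, col_zero hX hj]
      omega
    · refine le_trans (sum_le_sum fun x _ => ?_) hs
      by_cases e : x = i <;> simp [e, r0]
    · push_cast
      nlinarith
  by_cases c2 : ∃ j, c j ≠ 0 ∧ c j ≤ T
  · obtain ⟨j, p1, p2⟩ := c2
    have := nz_update p1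
    obtain ⟨q, rfl⟩ : ∃ q', q = q' + 1 := ⟨q - 1, by omega⟩
    refine (peel_row j (by omega) p2 fun X hX =>
      (ih _ (by omega) k q _ _ rfl ?_ ?_).transp).transp.mono ?_
    · have := nz_mono (r := r) (r' := r - row j X) fun i hi => by simp [row, hi, col_zero hX hi]
      omega
    · refine le_trans (sum_le_sum fun x _ => ?_) hs
      simpa [row] using (mem_Tab.mp hX).1 _
    · push_cast
      nlinarith
  push Not at c1 c2
  by_cases c3 : ∀ i, r i = 0
  · intro f δ _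
    refine (Var_le _ f (f W)).trans (le_of_eq_of_le (sum_eq_zero fun X hX => ?_) (by positivity))
    rw [show X = W from funext fun ⟨i, j⟩ => by rw [row_zero hX (c3 i), row_zero hW (c3 i)]]
    simp
  push Not at c3
  obtain ⟨i0, hi⟩ := c3
  obtain ⟨j0, hj⟩ : ∃ j, c j ≠ 0 := by
    by_contra h
    push Not at h
    exact hi (by rw [← w1]; exact sum_eq_zero fun j _ => col_zero hW (h j) _)
  have hI : 0 < Fintype.card I := Fintype.card_pos_iff.mpr ⟨i0⟩
  obtain ⟨k, rfl⟩ : ∃ k', k = k' + 1 := by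
    have := c1 i0 hi
    have := single_le_sum (fun x _ => r0 x) (mem_univ i0)
    have : 0 < T := by positivity
    cases k with
    | zero => omega
    | succ k => exact ⟨k, rfl⟩
  refine (halve hi hj (fun i h => lt_of_le_of_lt ?_ (c1 i h)) (fun j h => lt_of_le_of_lt ?_ (c2 j h))
    h0 h1 hk hε (by positivity) fun X hX => ih _ (by omega) k q _ _ rfl ?_ ?_).mono ?_
  · rw [hT]; push_cast; nlinarith
  · rw [hT]; push_cast; nlinarith
  · have := nz_mono (r := r) (r' := fun i => ∑ j, X (i, j) / 2) fun i h => by simp [row_zero hX h]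
    have := nz_mono (r := c) (r' := fun j => ∑ i, X (i, j) / 2) fun i h => by simp [col_zero hX h]
    omega
  · have : 2 * ∑ i, ∑ j, X (i, j) / 2 ≤ ∑ i, r i := by
      simp only [mul_sum, ← (mem_Tab.mp hX).2.1]
      exact sum_le_sum fun i _ => sum_le_sum fun j _ => by omega
    rw [pow_succ] at hs
    omega
  · have one : 1 ≤ (1 + 8 * ε) ^ (Fintype.card (I × J) * k) := one_le_pow₀ (by linarith)
    rw [mul_add_one (Fintype.card (I × J)) k, pow_add,
      mul_comm ((1 + 8 * ε) ^ (Fintype.card (I × J) * k)) ((1 + 8 * ε) ^ Fintype.card (I × J)),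
      mul_assoc ((1 + 8 * ε) ^ Fintype.card (I × J))]
    refine mul_le_mul_of_nonneg_left ?_ (pow_nonneg (by linarith) _)
    push_cast
    nlinarith [Nat.cast_nonneg (α := ℝ) (Fintype.card (I × J))]

/-- All margins of total at most `2 ^ k`, with `W` above the dimensions and `k`. -/
theorem poin (r : I → ℤ) (c : J → ℤ) {k W : ℕ} (hs : ∑ i, r i ≤ 2 ^ k) (hI : Fintype.card I ≤ W)
    (hJ : Fintype.card J ≤ W) (hk : k + 1 ≤ W) : Poin (Tab r c) (k + 1) (2 ^ 24 * W ^ 26) := by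
  have W0 : 0 < W := by omega
  have W1 : (1 : ℝ) ≤ W := by exact_mod_cast W0
  have m : (Fintype.card I : ℝ) ≤ W := by exact_mod_cast hI
  have n : (Fintype.card J : ℝ) ≤ W := by exact_mod_cast hJ
  have k1 : (k : ℝ) ≤ W := by exact_mod_cast (by omega : k ≤ W)
  have K1 : (Fintype.card (I × J) : ℝ) ≤ W ^ 2 := by
    rw [Fintype.card_prod, sq]; push_cast; gcongr
  have K2 : (Fintype.card (J × I) : ℝ) ≤ W ^ 2 := by
    rw [Fintype.card_prod, sq]; push_cast; gcongr
  have hT : ((2 * (16 * W ^ 5) * (Fintype.card I + Fintype.card J) : ℕ) : ℝ) ≤ 64 * W ^ 6 := by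
    push_cast
    nlinarith [mul_le_mul_of_nonneg_left (add_le_add m n) (by positivity : (0 : ℝ) ≤ W ^ 5)]
  have p6 : (1 : ℝ) ≤ W ^ 6 := one_le_pow₀ W1
  have hA : ∀ a b c T : ℝ, 0 ≤ b → 0 ≤ c → 0 ≤ T → a ≤ W → b ≤ W → c ≤ W ^ 2 → T ≤ 64 * W ^ 6 →
      a * ((T + 1) * (T ^ 2 * (2 + 2 * (b * c) ^ 2))) ≤ 2 ^ 21 * W ^ 25 := by
    intro a b c T _ _ _ _ _ _ _
    calc _ ≤ (W : ℝ) * ((64 * W ^ 6 + 64 * W ^ 6) *
          ((64 * W ^ 6) ^ 2 * (2 * W ^ 6 + 2 * (W * W ^ 2) ^ 2))) := by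
          gcongr <;> linarith
      _ = _ := by ring
  refine (poin_aux (k0 := 16 * W ^ 5) (ε := 1 / (8 * W ^ 3)) (A := 2 ^ 21 * W ^ 25) (by positivity)
    (one_div_le_one_div_of_le two_pos (by nlinarith [one_le_pow₀ (n := 3) W1])) (by positivity) ?_
    (hA _ _ _ _ (by positivity) (by positivity) (by positivity) n m K1 hT)
    (hA _ _ _ _ (by positivity) (by positivity) (by positivity) m n K2 hT) _ k
    (Fintype.card I + Fintype.card J) r c rfl
    (add_le_add (card_le_univ _) (card_le_univ _)) hs).mono ?_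
  · push_cast
    calc _ ≤ 2 * (W : ℝ) ^ 2 := by linarith
      _ = _ := by field_simp; ring
  have e1 : (1 + 8 * (1 / (8 * (W : ℝ) ^ 3))) ^ (Fintype.card (I × J) * k) ≤ 3 := by
    have a : (1 + 8 * (1 / (8 * (W : ℝ) ^ 3))) ≤ Real.exp (1 / W ^ 3) := by
      rw [show 8 * (1 / (8 * (W : ℝ) ^ 3)) = 1 / W ^ 3 by field_simp, add_comm]
      exact Real.add_one_le_exp _
    refine (pow_le_pow_left₀ (by positivity) a _).trans ?_
    rw [← Real.exp_nat_mul]
    refine (Real.exp_le_exp.mpr (show _ ≤ (1 : ℝ) from ?_)).trans (by linarith [Real.exp_one_lt_d9])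
    rw [mul_one_div, div_le_one (by positivity), Nat.cast_mul, pow_succ]
    gcongr
  calc _ ≤ 3 * ((W + W) * (2 ^ 21 * W ^ 25) + 4 * W ^ 2 * W : ℝ) := by
        rw [Nat.cast_add]; gcongr
    _ ≤ _ := by
        have : (W : ℝ) ^ 3 ≤ W ^ 26 := pow_le_pow_right₀ W1 (by norm_num)
        have : (0 : ℝ) ≤ W ^ 3 := by positivity
        nlinarith

end Vale.Agent.P328
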