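import Vale.Agent.P328.Flow

/-! The rhombus inequality for flow counts. -/

namespace Vale.Agent.P328

open Finset Function

set_option linter.unusedSectionVars false

theorem tail_le {ι : Type} [LinearOrder ι] (S : Finset ι) (a b : ι → ℝ) (θ : ι)
    (h : ∀ x ∈ S, ∀ y ∈ S, x < y → a y * b x ≤ a x * b y) :
    (∑ x ∈ S with θ ≤ x, a x) * ∑ x ∈ S, b x ≤ (∑ x ∈ S with θ ≤ x, b x) * ∑ x ∈ S, a x := by
  rw [← sum_filter_add_sum_filter_not S (θ ≤ ·) a, ← sum_filter_add_sum_filter_not S (θ ≤ ·) b]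
  have : (∑ x ∈ S with θ ≤ x, a x) * ∑ x ∈ S with ¬θ ≤ x, b x ≤
      (∑ x ∈ S with θ ≤ x, b x) * ∑ x ∈ S with ¬θ ≤ x, a x := by
    rw [sum_mul_sum, sum_mul_sum]
    refine sum_le_sum fun y hy => sum_le_sum fun x hx => ?_
    rw [mem_filter] at hx hy
    rw [mul_comm (b y)]
    exact h x hx.1 y hy.1 ((not_le.mp hx.2).trans_le hy.2)
  nlinarith

theorem tail_le' (n : ℕ) (a b : ℕ → ℝ) (ha : ∀ i, 0 ≤ a i) (hb : ∀ i, 0 ≤ b i) (θ : ℕ)
    (h : ∀ x y, x < y → a x * b (y + 1) ≤ b (x + 1) * a y) :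
    (∑ x ∈ Ico (θ + 1) n, b x) * ∑ x ∈ range n, a x ≤ (∑ x ∈ Ico θ n, a x) * ∑ x ∈ range n, b x := by
  by_cases hn : n ≤ θ
  · rw [Ico_eq_empty_of_le hn, Ico_eq_empty_of_le (by omega)]; simp
  obtain ⟨m, rfl⟩ : ∃ m, n = m + 1 := ⟨n - 1, by omega⟩
  rw [← sum_range_add_sum_Ico a (show θ ≤ m + 1 by omega),
    ← sum_range_add_sum_Ico b (show θ + 1 ≤ m + 1 by omega), ← sum_Ico_add' b θ m 1,
    sum_range_succ' b, sum_Ico_succ_top (show θ ≤ m by omega)]
  have h1 : (∑ x ∈ Ico θ m, b (x + 1)) * ∑ x ∈ range θ, a x ≤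
      (∑ x ∈ Ico θ m, a x) * ∑ x ∈ range θ, b (x + 1) := by
    rw [sum_mul_sum, sum_mul_sum]
    refine sum_le_sum fun y hy => sum_le_sum fun x hx => ?_
    rw [mul_comm (b _), mul_comm (a y)]
    exact h x y (by rw [mem_range] at hx; rw [mem_Ico] at hy; omega)
  have p1 : 0 ≤ ∑ x ∈ Ico θ m, a x := sum_nonneg fun _ _ => ha _
  have p2 : 0 ≤ ∑ x ∈ range θ, b (x + 1) := sum_nonneg fun _ _ => hb _
  have := ha m
  have := hb 0
  nlinarith [mul_nonneg p1 (hb 0), mul_nonneg (ha m) p2, mul_nonneg (ha m) (hb 0)]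

theorem interleave (n : ℕ) (a b a1 b1 : ℕ → ℝ) (ha : ∀ i, 0 ≤ a1 i ∧ a1 i ≤ a i)
    (hb : ∀ i, 0 ≤ b1 i ∧ b1 i ≤ b i)
    (h0 : ∀ i, a1 i * b i ≤ b1 i * a i) (h1 : ∀ i, a1 i * b (i + 1) ≤ b1 (i + 1) * a i)
    (t1 : ∀ θ, (∑ x ∈ Ico θ n, a x) * ∑ x ∈ range n, b x ≤ (∑ x ∈ Ico θ n, b x) * ∑ x ∈ range n, a x)
    (t2 : ∀ θ, (∑ x ∈ Ico (θ + 1) n, b x) * ∑ x ∈ range n, a x ≤
      (∑ x ∈ Ico θ n, a x) * ∑ x ∈ range n, b x) :
    (∑ x ∈ range n, a1 x) * ∑ x ∈ range n, b x ≤ (∑ x ∈ range n, b1 x) * ∑ x ∈ range n, a x := by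
  set A := ∑ x ∈ range n, a x with hA
  set B := ∑ x ∈ range n, b x with hB
  set k0 : ℕ → ℝ := fun i => (∑ x ∈ Ico i n, a x) * B - (∑ x ∈ Ico (i + 1) n, b x) * A with hk0
  set k1 : ℕ → ℝ := fun i => (∑ x ∈ Ico i n, b x) * A - (∑ x ∈ Ico i n, a x) * B with hk1
  have p0 : ∀ i, 0 ≤ k0 i := fun i => sub_nonneg.mpr (t2 i)
  have p1 : ∀ i, 0 ≤ k1 i := fun i => sub_nonneg.mpr (t1 i)
  have e0 : ∀ i < n, k0 i + k1 (i + 1) = a i * B := fun i hi => by
    simp only [hk0, hk1]; rw [sum_eq_sum_Ico_succ_bot hi a]; ring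
  have e1 : ∀ i < n, k0 i + k1 i = b i * A := fun i hi => by
    simp only [hk0, hk1]; rw [sum_eq_sum_Ico_succ_bot hi b]; ring
  have z0 : k1 0 = 0 := by simp only [hk1, ← range_eq_Ico, ← hA, ← hB]; ring
  have zn : k1 n = 0 := by simp [hk1]
  have q : ∀ x1 x : ℝ, 0 ≤ x1 → x1 ≤ x → x1 = x1 / x * x := fun x1 x p q => by
    rcases (p.trans q).eq_or_lt with h | h
    · rw [← h, mul_zero]; linarith
    · field_simp
  have cmp : ∀ x1 x y1 y k : ℝ, 0 ≤ x → 0 ≤ y → 0 ≤ k → k ≤ x * B → k ≤ y * A → x1 * y ≤ y1 * x →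
      x1 / x * k ≤ y1 / y * k := fun x1 x y1 y k hx hy hk k1 k2 h => by
    rcases hk.eq_or_lt with e | e
    · rw [← e]; simp
    have hx' : 0 < x := hx.lt_of_ne (by rintro rfl; linarith)
    have hy' : 0 < y := hy.lt_of_ne (by rintro rfl; linarith)
    exact mul_le_mul_of_nonneg_right ((div_le_div_iff₀ hx' hy').mpr h) hk
  have a0 : ∀ i, 0 ≤ a i := fun i => (ha i).1.trans (ha i).2
  have b0 : ∀ i, 0 ≤ b i := fun i => (hb i).1.trans (hb i).2
  calc (∑ x ∈ range n, a1 x) * B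
      = ∑ x ∈ range n, (a1 x / a x * k0 x + a1 x / a x * k1 (x + 1)) := by
        rw [sum_mul]
        refine sum_congr rfl fun i hi => ?_
        rw [← mul_add, e0 i (mem_range.mp hi), ← mul_assoc, ← q _ _ (ha i).1 (ha i).2]
    _ ≤ ∑ x ∈ range n, (b1 x / b x * k0 x + b1 (x + 1) / b (x + 1) * k1 (x + 1)) := by
        refine sum_le_sum fun i hi => ?_
        have hi := mem_range.mp hi
        have c0 := e0 i hi
        have c1 := e1 i hi
        refine add_le_add (cmp _ _ _ _ _ (a0 i) (b0 i) (p0 i) (by linarith [p1 (i + 1)])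
          (by linarith [p1 i]) (h0 i)) ?_
        rcases (Nat.succ_le_of_lt hi).eq_or_lt with e | e
        · rw [show i + 1 = n from e, zn]; simp
        · exact cmp _ _ _ _ _ (a0 i) (b0 _) (p1 _) (by linarith [p0 i])
            (by linarith [p0 (i + 1), e1 (i + 1) e]) (h1 i)
    _ = ∑ x ∈ range n, (b1 x / b x * k0 x + b1 x / b x * k1 x) := by
        rw [sum_add_distrib, sum_add_distrib]
        have s1 := sum_range_succ' (fun x => b1 x / b x * k1 x) n
        have s2 := sum_range_succ (fun x => b1 x / b x * k1 x) n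
        simp only [z0, zn, mul_zero, add_zero] at s1 s2
        rw [← s1, s2]
    _ = _ := by
        rw [sum_mul]
        refine sum_congr rfl fun i hi => ?_
        rw [← mul_add, e1 i (mem_range.mp hi), ← mul_assoc, ← q _ _ (hb i).1 (hb i).2]

theorem reidx (l u sg : ℤ) (hs : sg = 1 ∨ sg = -1) (h : l ≤ u) : ∃ c : ℤ, ∀ g : ℤ → ℝ,
    ∑ x ∈ Icc l u, g x = ∑ i ∈ range ((u - l).toNat + 1), g (c + sg * i) := by
  rcases hs with rfl | rfl
  · refine ⟨l, fun g => (sum_nbij' (fun i : ℕ => l + 1 * (i : ℤ)) (fun x => (x - l).toNat) ?_ ?_ ?_ ?_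
      fun _ _ => rfl).symm⟩ <;> intro x hx <;> simp only [mem_range, mem_Icc] at * <;> omega
  · refine ⟨u, fun g => (sum_nbij' (fun i : ℕ => u + -1 * (i : ℤ)) (fun x => (u - x).toNat) ?_ ?_ ?_ ?_
      fun _ _ => rfl).symm⟩ <;> intro x hx <;> simp only [mem_range, mem_Icc] at * <;> omega

variable {V E : Type} [DecidableEq V] [Fintype E] [DecidableEq E]

namespace Net

theorem sum_bd (N : Net V E) (τ : V → ℤ) (v : V) :
    ∑ e, (N.dl e v : ℝ) * ∑ φ ∈ N.fl τ, (φ e : ℝ) = N.cnt τ * τ v := by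
  simp only [mul_sum]
  rw [sum_comm, cnt, ← nsmul_eq_mul, ← sum_const]
  refine sum_congr rfl fun φ hφ => ?_
  rw [← (mem_fl.mp hφ).2, bd_apply]
  push_cast
  exact sum_congr rfl fun _ _ => mul_comm _ _

theorem rh_aux (n : ℕ) : ∀ N : Net V E, N.mu = n → N.Rh := by
  induction n using Nat.strong_induction_on with
  | _ n ih =>
  intro N hn s v t σ
  by_cases hvs : v = s
  · subst hvs
    rw [show σ + ev v - ev v = σ by abel, show σ - ev t + ev v = σ + ev v - ev t by abel]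
  by_contra hc
  rw [not_le] at hc
  set a0 := N.cnt σ with ha0
  set a1 := N.cnt (σ - ev t + ev s) with ha1
  set b0 := N.cnt (σ + ev v - ev s) with hb0
  set b1 := N.cnt (σ + ev v - ev t) with hb1
  have pa0 : 0 ≤ a0 := N.cnt_nonneg _
  have pb1 : 0 ≤ b1 := N.cnt_nonneg _
  have pa1 : 0 < a1 := (N.cnt_nonneg _).lt_of_ne (by rintro h; rw [ha1, ← h] at hc; nlinarith)
  have pb0 : 0 < b0 := (N.cnt_nonneg _).lt_of_ne (by rintro h; rw [hb0, ← h] at hc; nlinarith)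
  obtain ⟨e, -, he⟩ : ∃ e ∈ univ, 0 < (N.dl e v : ℝ) * ((a0 + a1) *
      (∑ φ ∈ N.fl (σ + ev v - ev s), (φ e : ℝ) + ∑ φ ∈ N.fl (σ + ev v - ev t), (φ e : ℝ)) -
      (b0 + b1) * (∑ φ ∈ N.fl σ, (φ e : ℝ) + ∑ φ ∈ N.fl (σ - ev t + ev s), (φ e : ℝ))) := by
    refine exists_lt_of_sum_lt (f := fun _ => 0) ?_
    have s1 := N.sum_bd σ v
    have s2 := N.sum_bd (σ - ev t + ev s) v
    have s3 := N.sum_bd (σ + ev v - ev s) v
    have s4 := N.sum_bd (σ + ev v - ev t) v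
    simp only [mul_sub, mul_add, mul_left_comm (N.dl _ v : ℝ), sum_sub_distrib, sum_add_distrib,
      ← mul_sum, s1, s2, s3, s4, sum_const_zero, ← ha0, ← ha1, ← hb0, ← hb1]
    simp only [Pi.add_apply, Pi.sub_apply, ev, hvs, if_true, if_false]
    split_ifs <;> push_cast <;> nlinarith [mul_pos pa1 pb0, mul_nonneg pa0 pb1, mul_nonneg pa0 pb0.le,
      mul_nonneg pa1.le pb1]
  obtain ⟨w, hw, h1, h2⟩ := dl_cases N e v (by rintro h; simp [h] at he)
  have hlu : N.l e ≤ N.u e := by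
    obtain ⟨φ, hφ⟩ := cnt_pos.mp pa1
    have := (mem_fl.mp hφ).1 e
    omega
  obtain ⟨c, hc'⟩ := reidx _ _ _ h2 hlu
  set m := (N.u e - N.l e).toNat with hm
  set F := (N.del e).cnt with hF
  set p : ℕ → V → ℤ := fun i => σ - c • N.dl e - (i : ℤ) • (ev v - ev w) with hp
  have key : ∀ (g : ℤ → ℝ) (δ : V → ℤ), ∑ φ ∈ N.fl (σ + δ), g (φ e) =
      ∑ i ∈ range (m + 1), g (c + N.dl e v * i) * F (p i + δ) := fun g δ => by
    rw [sum_fl, hc']
    refine sum_congr rfl fun i _ => ?_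
    congr 2
    simp only [hp]
    rw [← h1, add_smul, mul_comm, mul_smul]
    abel
  have k1 : ∀ δ : V → ℤ, N.cnt (σ + δ) = ∑ i ∈ range (m + 1), F (p i + δ) := fun δ => by
    simpa [cnt] using key (fun _ => 1) δ
  have k2 : ∀ δ : V → ℤ, (N.dl e v : ℝ) * ∑ φ ∈ N.fl (σ + δ), (φ e : ℝ) =
      c * N.dl e v * N.cnt (σ + δ) + ∑ i ∈ range (m + 1), i * F (p i + δ) := fun δ => by
    rw [key (fun x => (x : ℝ)), k1, mul_sum, mul_sum, ← sum_add_distrib]
    refine sum_congr rfl fun i _ => ?_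
    rcases h2 with h | h <;> rw [h] <;> push_cast <;> ring
  have f0 : ∀ τ, 0 ≤ F τ := (N.del e).cnt_nonneg
  set A : ℕ → ℝ := fun i => F (p i) + F (p i - ev t + ev s) with hA
  set B : ℕ → ℝ := fun i => F (p i + ev v - ev s) + F (p i + ev v - ev t) with hB
  have sA : ∑ i ∈ range (m + 1), A i = a0 + a1 := by
    have x := k1 0
    have y := k1 (-ev t + ev s)
    simp only [add_zero, ← add_assoc, ← sub_eq_add_neg] at x y
    rw [sum_add_distrib, ← x, ← y]
  have sB : ∑ i ∈ range (m + 1), B i = b0 + b1 := by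
    have x := k1 (ev v - ev s)
    have y := k1 (ev v - ev t)
    simp only [← add_sub_assoc] at x y
    rw [sum_add_distrib, ← x, ← y]
  have he' : (b0 + b1) * ∑ i ∈ range (m + 1), i * A i < (a0 + a1) * ∑ i ∈ range (m + 1), i * B i := by
    have x1 := k2 0
    have x2 := k2 (-ev t + ev s)
    have x3 := k2 (ev v - ev s)
    have x4 := k2 (ev v - ev t)
    simp only [add_zero, ← add_assoc, ← sub_eq_add_neg, ← add_sub_assoc, ← ha0, ← ha1, ← hb0,
      ← hb1] at x1 x2 x3 x4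
    simp only [hA, hB, mul_add (_ : ℝ) (F _), sum_add_distrib]
    rw [mul_sub, mul_left_comm, mul_left_comm _ (b0 + b1), mul_add (N.dl e v : ℝ),
      mul_add (N.dl e v : ℝ), x1, x2, x3, x4] at he
    linarith
  have hmu := N.mu_del e
  have hm0 : m ≠ 0 := by rintro h; simp [h] at he'
  have r1 : (N.del e).Rh := ih _ (by omega) _ rfl
  have ps : ∀ i, p (i + 1) + ev v = p i + ev w := fun i => by
    simp only [hp]; push_cast; rw [add_smul, one_smul]; abel
  have := interleave (m + 1) A B (fun i => F (p i - ev t + ev s)) (fun i => F (p i + ev v - ev t))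
    (fun i => ⟨f0 _, le_add_of_nonneg_left (f0 _)⟩) (fun i => ⟨f0 _, le_add_of_nonneg_left (f0 _)⟩)
    (fun i => by have := r1 s v t (p i); simp only [hA, hB]; nlinarith)
    (fun i => by have := r1 s w t (p i); simp only [hA, hB, ps]; nlinarith) ?_ ?_
  · have x := k1 (-ev t + ev s)
    have y := k1 (ev v - ev t)
    simp only [← add_assoc, ← sub_eq_add_neg, ← add_sub_assoc] at x y
    rw [sA, sB, ← x, ← y, ← ha1, ← hb1] at this
    nlinarith
  all_goals
    have A0 : ∀ i, 0 ≤ A i := fun i => add_nonneg (f0 _) (f0 _)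
    have B0 : ∀ i, 0 ≤ B i := fun i => add_nonneg (f0 _) (f0 _)
    intro θ
    by_cases hm1 : m = 1
    · rw [sA, sB]
      rw [hm1] at sA sB he' ⊢
      simp only [sum_range_succ, range_zero, sum_empty, Nat.cast_zero, zero_mul, zero_add,
        Nat.cast_one, one_mul] at sA sB he'
      rw [← sA, ← sB] at he' ⊢
      rcases (by omega : θ = 0 ∨ θ = 1 ∨ 2 ≤ θ) with rfl | rfl | h
      · simp [sum_range_succ]
        nlinarith [mul_nonneg (B0 0) (A0 0), mul_nonneg (B0 0) (A0 1)]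
      · simp
        nlinarith [mul_nonneg (B0 0) (A0 1), mul_nonneg (B0 1) (A0 1)]
      · simp [Ico_eq_empty_of_le h, Ico_eq_empty_of_le (h.trans (Nat.le_succ θ))]
    have r2 : (N.set e t s 0 1).Rh := ih _ (by rw [mu_set]; simp; omega) _ rfl
    have pk : ∀ x y : ℕ, x < y → p y = p x + ((y - x : ℕ) : ℤ) • (ev w - ev v) := fun x y h => by
      simp only [hp]; rw [Nat.cast_sub h.le]; module
    have eA : ∀ i, A i = (N.set e t s 0 1).cnt (p i) := fun i => by rw [cnt_test]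
    have eB : ∀ i, B i = (N.set e t s 0 1).cnt (p i + ev v - ev s) := fun i => by
      rw [cnt_test, show p i + ev v - ev s - ev t + ev s = p i + ev v - ev t by abel]
  · have := tail_le (range (m + 1)) A B θ fun x _ y _ h => by
      rw [eA, eB, eA, eB, pk x y h]
      exact mlr r2 hw.symm s _ _
    rwa [show (range (m + 1)).filter (θ ≤ ·) = Ico θ (m + 1) by ext; simp; omega] at this
  · refine tail_le' _ A B A0 B0 θ fun x y h => ?_
    have := mlr r2 hw s (y - x) (p y)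
    rw [show p y + ((y - x : ℕ) : ℤ) • (ev v - ev w) = p x by rw [pk x y h]; module] at this
    rw [eA, eB, eA, eB, ps, ps, mul_comm _ (cnt _ (p y))]
    exact this

theorem rh (N : Net V E) : N.Rh := rh_aux _ N rfl

end Net

end Vale.Agent.P328
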