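import Vale.Agent.P328.Chain

/-! The rectangle chain on tables indexed by `Fin m × Fin n`. -/

namespace Vale.Agent.P328

open Finset Function

variable {m n : ℕ}

def mstep (s : ℕ) (u : ℕ × ℕ × ℕ × ℕ × ℕ) (X : Fin m × Fin n → ℤ) : Fin m × Fin n → ℤ :=
  if h : u.1 < m ∧ u.2.1 < m ∧ u.2.2.1 < n ∧ u.2.2.2.1 < n then
    if 2 ^ min u.2.2.2.2 s ≤ X (⟨_, h.1⟩, ⟨_, h.2.2.2⟩) ∧ 2 ^ min u.2.2.2.2 s ≤ X (⟨_, h.2.1⟩, ⟨_, h.2.2.1⟩)
    then X + (2 ^ min u.2.2.2.2 s : ℤ) • rect ⟨_, h.1⟩ ⟨_, h.2.1⟩ ⟨_, h.2.2.1⟩ ⟨_, h.2.2.2⟩ else X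
  else X

theorem mstep_fin (s l : ℕ) (i i' : Fin m) (j j' : Fin n) (X : Fin m × Fin n → ℤ) :
    mstep s (i, i', j, j', l) X = if 2 ^ min l s ≤ X (i, j') ∧ 2 ^ min l s ≤ X (i', j) then
      X + (2 ^ min l s : ℤ) • rect i i' j j' else X := by
  simp [mstep]

theorem mstep_cases (s : ℕ) (u : ℕ × ℕ × ℕ × ℕ × ℕ) (X : Fin m × Fin n → ℤ) : mstep s u X = X ∨
    ∃ (i i' : Fin m) (j j' : Fin n) (l : ℕ), u = (i.1, i'.1, j.1, j'.1, l) ∧ i ≠ i' ∧ j ≠ j' ∧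
      2 ^ min l s ≤ X (i, j') ∧ 2 ^ min l s ≤ X (i', j) ∧
      mstep s u X = X + (2 ^ min l s : ℤ) • rect i i' j j' := by
  obtain ⟨a, b, c, d, l⟩ := u
  by_cases h : a < m ∧ b < m ∧ c < n ∧ d < n
  · lift a to Fin m using h.1
    lift b to Fin m using h.2.1
    lift c to Fin n using h.2.2.1
    lift d to Fin n using h.2.2.2
    rw [mstep_fin]
    split_ifs with e
    · by_cases e1 : a = b
      · left; simp [e1, rect]
      by_cases e2 : c = d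
      · left; simp [e2, rect]
      exact Or.inr ⟨a, b, c, d, l, rfl, e1, e2, e.1, e.2, rfl⟩
    · exact Or.inl rfl
  · left; simp only [mstep, h, dite_false]

theorem mstep_mem {r : Fin m → ℤ} {c : Fin n → ℤ} (s : ℕ) (u : ℕ × ℕ × ℕ × ℕ × ℕ)
    {X : Fin m × Fin n → ℤ} (h : X ∈ Tab r c) : mstep s u X ∈ Tab r c := by
  rcases mstep_cases s u X with e | ⟨i, i', j, j', l, -, h1, -, h2, h3, e⟩ <;> rw [e]
  · exact h
  · exact add_rect_mem h h1 (by positivity) h2 h3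

def Tp (W : ℕ) : Finset (ℕ × ℕ × ℕ × ℕ × ℕ) := range W ×ˢ range W ×ˢ range W ×ˢ range W ×ˢ range W

theorem card_Tp (W : ℕ) : (Tp W).card = W ^ 5 := by simp [Tp]; ring

theorem mstep_ds (r : Fin m → ℤ) (c : Fin n → ℤ) (s W : ℕ) (h : (Fin m × Fin n → ℤ) → ℝ) :
    ∑ x ∈ Tab r c, ∑ u ∈ Tp W, h (mstep s u x) = (Tp W).card * ∑ x ∈ Tab r c, h x := by
  refine ds_of_invol (fun u => (u.1, u.2.1, u.2.2.2.1, u.2.2.1, u.2.2.2.2))
    (fun u _ x hx => mstep_mem s u hx) (fun u hu => by simp only [Tp, mem_product] at *; tauto)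
    (fun _ => rfl) (fun u _ X hX hne => ?_) h
  rcases mstep_cases s u X with e | ⟨i, i', j, j', l, rfl, h1, h2, -, -, e⟩
  · exact absurd e hne
  have x0 := (mem_Tab.mp hX).1
  rw [e, mstep_fin, if_pos]
  · simp only [rect]; module
  · simp [rect, ev, h1, h2, h1.symm, h2.symm, x0]

theorem mstep_poin (r : Fin m → ℤ) (c : Fin n → ℤ) {s W : ℕ} (hs : ∑ i, r i ≤ 2 ^ s) (hm : m ≤ W)
    (hn : n ≤ W) (hW : s + 1 ≤ W) (g : (Fin m × Fin n → ℤ) → ℝ) :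
    Var (Tab r c) g ≤ 2 ^ 24 * W ^ 26 * ∑ x ∈ Tab r c, ∑ u ∈ Tp W, (g (mstep s u x) - g x) ^ 2 := by
  have := poin r c hs (by simpa) (by simpa) hW g
    (fun x => √(∑ u ∈ Tp W, (g (mstep s u x) - g x) ^ 2))
    ⟨fun _ => Real.sqrt_nonneg _, fun X i i' j j' l a _ _ d e => Real.abs_le_sqrt (by
      refine le_of_eq_of_le ?_ (single_le_sum (f := fun u => (g (mstep s u X) - g X) ^ 2)
        (fun _ _ => sq_nonneg _) (a := (i.1, i'.1, j.1, j'.1, l)) ?_)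
      · simp only [mstep_fin, min_eq_left (Nat.lt_succ_iff.mp a), d, e, and_self, if_true]
      · simp only [Tp, mem_product, mem_range]
        omega)⟩
  rwa [sum_congr rfl fun x _ => Real.sq_sqrt (sum_nonneg fun _ _ => sq_nonneg _)] at this

def dec (W y : ℕ) : ℕ × ℕ × ℕ × ℕ × ℕ :=
  (y % W, y / W % W, y / W / W % W, y / W / W / W % W, y / W / W / W / W)

def mmv (W s x : ℕ) (X : Fin m × Fin n → ℤ) : Fin m × Fin n → ℤ :=
  if x % 2 = 1 then X else mstep s (dec W (x / 2)) X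

theorem sum_dec (W : ℕ) (φ : ℕ × ℕ × ℕ × ℕ × ℕ → ℝ) :
    ∑ y ∈ range (W ^ 5), φ (dec W y) = ∑ u ∈ Tp W, φ u := by
  simp only [Tp, sum_product]
  rw [show W ^ 5 = W * (W * (W * (W * W))) by ring]
  refine (sum_range_mul' W _ fun a y => φ (a, y % W, y / W % W, y / W / W % W, y / W / W / W)).trans
    (sum_congr rfl fun a _ => ?_)
  refine (sum_range_mul' W _ fun b y => φ (a, b, y % W, y / W % W, y / W / W)).trans
    (sum_congr rfl fun b _ => ?_)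
  refine (sum_range_mul' W _ fun c y => φ (a, b, c, y % W, y / W)).trans
    (sum_congr rfl fun c _ => ?_)
  exact sum_range_mul' W _ fun d y => φ (a, b, c, d, y)

theorem sum_mmv {W : ℕ} (hW : 0 < W) (s : ℕ) (h : (Fin m × Fin n → ℤ) → ℝ) (X : Fin m × Fin n → ℤ) :
    ∑ x ∈ range (2 * W ^ 5), h (mmv W s x X) = 2 * W ^ 5 * lz (Tp W) (mstep s) h X := by
  refine (sum_range_mul' 2 _ fun a y => h (if a = 1 then X else mstep s (dec W y) X)).trans ?_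
  simp only [sum_range_succ, range_zero, sum_empty, zero_add, zero_ne_one, if_false, if_true,
    sum_dec W fun u => h (mstep s u X), lz, mean, card_Tp, sum_const, card_range, nsmul_eq_mul]
  push_cast
  field_simp
  ring

theorem mmv_mem {r : Fin m → ℤ} {c : Fin n → ℤ} (W s x : ℕ) {X : Fin m × Fin n → ℤ} (h : X ∈ Tab r c) :
    mmv W s x X ∈ Tab r c := by
  unfold mmv
  split_ifs
  · exact h
  · exact mstep_mem _ _ h

end Vale.Agent.P328
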