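import Vale.Agent.P328.Cover

/-! Tables with given margins as flows; exposure of a row or a column. -/

namespace Vale.Agent.P328

open Finset Function

set_option linter.unusedSectionVars false

section Mean

variable {α β : Type}

noncomputable def mean (S : Finset α) (f : α → ℝ) : ℝ := (∑ x ∈ S, f x) / S.card

theorem mean_mul {S : Finset α} (f : α → ℝ) : S.card * mean S f = ∑ x ∈ S, f x := by
  rcases S.eq_empty_or_nonempty with rfl | h
  · simp
  · rw [mean, mul_div_cancel₀ _ (by exact_mod_cast h.card_pos.ne')]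

theorem mean_add (S : Finset α) (f g : α → ℝ) :
    mean S (fun x => f x + g x) = mean S f + mean S g := by
  simp [mean, sum_add_distrib, add_div]

theorem mean_neg (S : Finset α) (f : α → ℝ) : mean S (fun x => -f x) = -mean S f := by
  simp [mean, neg_div]

theorem mean_smul (S : Finset α) (c : ℝ) (f : α → ℝ) :
    mean S (fun x => c * f x) = c * mean S f := by
  simp [mean, ← mul_sum, mul_div_assoc]

theorem mean_mono {S : Finset α} {f g : α → ℝ} (h : ∀ x ∈ S, f x ≤ g x) : mean S f ≤ mean S g :=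
  div_le_div_of_nonneg_right (sum_le_sum h) (Nat.cast_nonneg _)

theorem mean_nonneg {S : Finset α} {f : α → ℝ} (h : ∀ x ∈ S, 0 ≤ f x) : 0 ≤ mean S f :=
  div_nonneg (sum_nonneg h) (Nat.cast_nonneg _)

theorem mean_image [DecidableEq β] (S : Finset α) {ψ : α → β} (h : Injective ψ) (f : β → ℝ) :
    mean (S.image ψ) f = mean S fun x => f (ψ x) := by
  rw [mean, mean, card_image_of_injective _ h, sum_image h.injOn]

theorem sum_mean_fiber [DecidableEq β] (S : Finset α) (π : α → β) (f : α → ℝ) :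
    ∑ x ∈ S, mean (S.filter fun y => π y = π x) f = ∑ x ∈ S, f x := by
  rw [← sum_fiberwise_of_maps_to (g := π) (t := S.image π) fun x hx => mem_image_of_mem π hx,
    ← sum_fiberwise_of_maps_to (g := π) (t := S.image π) (fun x hx => mem_image_of_mem π hx) f]
  refine sum_congr rfl fun b _ => ?_
  rw [← mean_mul f, ← nsmul_eq_mul, ← sum_const]
  exact sum_congr rfl fun x hx => by rw [(mem_filter.mp hx).2]

end Mean

theorem Net.cover {V E β : Type} [DecidableEq V] [Fintype E] [DecidableEq E] [DecidableEq β]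
    (N : Net V E) {v s : V} (hs : s ≠ v) (hv : ∀ e, N.h e ≠ v) (σ : V → ℤ) (π : (E → ℤ) → β)
    (fA fB : (E → ℤ) → ℝ) {A B : Finset (E → ℤ)} (hA : N.fl σ = A) (hB : N.fl (σ + ev v - ev s) = B)
    (nA : A.Nonempty) (nB : B.Nonempty)
    (hyp : ∀ φ ∈ A, ∀ ψ ∈ B, ∀ e0, N.t e0 = v →
      (∀ e, N.t e = v → ψ e = φ e + if e = e0 then 1 else 0) →
      mean (B.filter fun y => π y = π ψ) fB ≤ mean (A.filter fun y => π y = π φ) fA) :
    mean B fB ≤ mean A fA := by
  subst hA hB
  have := Net.cover_aux hs σ _ _ _ N rfl hv hyp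
  rw [sum_mean_fiber, sum_mean_fiber, Net.cnt, Net.cnt] at this
  rw [mean, mean, div_le_div_iff₀ (by exact_mod_cast nB.card_pos) (by exact_mod_cast nA.card_pos)]
  linarith

variable {I J : Type} [Fintype I] [Fintype J] [DecidableEq I] [DecidableEq J]

open Classical in
/-- integer tables with given margins -/
noncomputable def Tab (r : I → ℤ) (c : J → ℤ) : Finset (I × J → ℤ) :=
  (Fintype.piFinset fun e => Icc 0 (r e.1)).filter fun X =>
    (∀ i, ∑ j, X (i, j) = r i) ∧ ∀ j, ∑ i, X (i, j) = c j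

theorem le_row {X : I × J → ℤ} (h : ∀ e, 0 ≤ X e) (i : I) (j : J) : X (i, j) ≤ ∑ j, X (i, j) :=
  single_le_sum (f := fun j => X (i, j)) (fun _ _ => h _) (mem_univ j)

theorem le_col {X : I × J → ℤ} (h : ∀ e, 0 ≤ X e) (i : I) (j : J) : X (i, j) ≤ ∑ i, X (i, j) :=
  single_le_sum (f := fun i => X (i, j)) (fun _ _ => h _) (mem_univ i)

theorem mem_Tab {r : I → ℤ} {c : J → ℤ} {X : I × J → ℤ} : X ∈ Tab r c ↔
    (∀ e, 0 ≤ X e) ∧ (∀ i, ∑ j, X (i, j) = r i) ∧ ∀ j, ∑ i, X (i, j) = c j := by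
  simp only [Tab, mem_filter, Fintype.mem_piFinset, mem_Icc]
  exact ⟨fun h => ⟨fun e => (h.1 e).1, h.2⟩,
    fun h => ⟨fun e => ⟨h.1 e, h.2.1 e.1 ▸ le_row h.1 e.1 e.2⟩, h.2⟩⟩

/-- tables with some entries of row `i` prescribed -/
noncomputable def Pin (i : I) (J1 : Finset J) (a : J → ℤ) (r : I → ℤ) (c : J → ℤ) :
    Finset (I × J → ℤ) := (Tab r c).filter fun X => ∀ j ∈ J1, X (i, j) = a j

theorem mem_Pin {i : I} {J1 : Finset J} {a : J → ℤ} {r : I → ℤ} {c : J → ℤ} {X : I × J → ℤ} :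
    X ∈ Pin i J1 a r c ↔ X ∈ Tab r c ∧ ∀ j ∈ J1, X (i, j) = a j := mem_filter

def rnet (l u : I × J → ℤ) : Net (I ⊕ J) (I × J) := ⟨fun e => .inl e.1, fun e => .inr e.2, l, u⟩

def cnet (l u : I × J → ℤ) : Net (I ⊕ J) (I × J) := ⟨fun e => .inr e.2, fun e => .inl e.1, l, u⟩

theorem rnet_bd (l u X : I × J → ℤ) :
    (rnet l u).bd X = Sum.elim (fun i => ∑ j, X (i, j)) fun j => -∑ i, X (i, j) := by
  funext v
  rw [Net.bd_apply, Fintype.sum_prod_type]
  rcases v with i | j
  · simp [Net.dl, rnet, ev]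
  · simp [Net.dl, rnet, ev]

theorem cnet_bd (l u X : I × J → ℤ) :
    (cnet l u).bd X = Sum.elim (fun i => -∑ j, X (i, j)) fun j => ∑ i, X (i, j) := by
  funext v
  rw [Net.bd_apply, Fintype.sum_prod_type]
  rcases v with i | j
  · simp [Net.dl, cnet, ev]
  · simp [Net.dl, cnet, ev]

def pnet (i : I) (J1 : Finset J) (a : J → ℤ) (M : I → ℤ) : Net (I ⊕ J) (I × J) :=
  rnet (fun e => if e.1 = i ∧ e.2 ∈ J1 then max (a e.2) 0 else 0)
    fun e => if e.1 = i ∧ e.2 ∈ J1 then a e.2 else M e.1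

theorem pnet_fl (i : I) (J1 : Finset J) (a : J → ℤ) {M r : I → ℤ} (h : ∀ i, r i ≤ M i)
    (c : J → ℤ) : (pnet i J1 a M).fl (Sum.elim r (-c)) = Pin i J1 a r c := by
  ext X
  rw [Net.mem_fl, pnet, rnet_bd, mem_Pin, mem_Tab]
  simp only [rnet, funext_iff, Sum.forall, Sum.elim_inl, Sum.elim_inr, Pi.neg_apply, neg_inj]
  constructor
  · rintro ⟨h1, h2⟩
    refine ⟨⟨fun e => ?_, h2⟩, fun j hj => ?_⟩
    · have := h1 e
      split_ifs at this <;> omega
    · have := h1 (i, j)
      simp only [hj, and_self, if_true] at this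
      omega
  · rintro ⟨⟨h1, h2⟩, h3⟩
    refine ⟨fun ⟨i', j⟩ => ?_, h2⟩
    have := h1 (i', j)
    have := le_row h1 i' j
    have := h2.1 i'
    have := h i'
    dsimp only
    split_ifs with hh
    · obtain ⟨rfl, hj⟩ := hh
      have := h3 j hj
      omega
    · omega

theorem cnet_fl (r : I → ℤ) (c : J → ℤ) :
    (cnet 0 fun e => r e.1).fl (Sum.elim (-r) c) = Tab r c := by
  ext X
  rw [Net.mem_fl, cnet_bd, mem_Tab]
  simp only [cnet, funext_iff, Sum.forall, Sum.elim_inl, Sum.elim_inr, Pi.neg_apply, neg_inj,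
    Pi.zero_apply]
  exact ⟨fun h => ⟨fun e => (h.1 e).1, h.2⟩,
    fun h => ⟨fun e => ⟨h.1 e, h.2.1 e.1 ▸ le_row h.1 e.1 e.2⟩, h.2⟩⟩

def row (i : I) (X : I × J → ℤ) : J → ℤ := fun j => X (i, j)
def col (j : J) (X : I × J → ℤ) : I → ℤ := fun i => X (i, j)
def rowE (i : I) (y : J → ℤ) : I × J → ℤ := fun e => if e.1 = i then y e.2 else 0
def colE (j : J) (x : I → ℤ) : I × J → ℤ := fun e => if e.2 = j then x e.1 else 0

theorem cov_row (i : I) (J1 : Finset J) (a : J → ℤ) (r : I → ℤ) (c : J → ℤ) (k : J)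
    (fA fB : (I × J → ℤ) → ℝ) (nA : (Pin i J1 a r c).Nonempty)
    (nB : (Pin i J1 a (r + ev i) (c + ev k)).Nonempty)
    (hyp : ∀ W ∈ Pin i J1 a r c, ∀ U ∈ Pin i J1 a (r + ev i) (c + ev k), ∀ j, row i U = row i W + ev j →
      mean ((Pin i J1 a (r + ev i) (c + ev k)).filter fun y => row i y = row i U) fB ≤
        mean ((Pin i J1 a r c).filter fun y => row i y = row i W) fA) :
    mean (Pin i J1 a (r + ev i) (c + ev k)) fB ≤ mean (Pin i J1 a r c) fA := by
  classical
  refine (pnet i J1 a (r + ev i)).cover (v := .inl i) (s := .inr k) (by simp) (by simp [pnet, rnet])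
    (Sum.elim r (-c)) (row i) fA fB (pnet_fl _ _ _ (fun x => ?_) _) ?_ nA nB ?_
  · simp only [Pi.add_apply, ev]; split_ifs <;> omega
  · rw [← pnet_fl i J1 a (M := r + ev i) (fun _ => le_rfl)]
    congr 1
    funext v
    rcases v with x | x <;> simp [ev]
    ring
  · rintro W hW U hU ⟨i', j⟩ h1 h2
    obtain rfl : i' = i := by simpa [pnet, rnet] using h1
    convert hyp W hW U hU j (funext fun y => ?_)
    simpa [row, ev] using h2 (i', y) rfl

theorem cov_col (r : I → ℤ) (c : J → ℤ) {j k : J} (hjk : j ≠ k) (fA fB : (I × J → ℤ) → ℝ)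
    (nA : (Tab r (c + ev k)).Nonempty) (nB : (Tab r (c + ev j)).Nonempty)
    (hyp : ∀ U ∈ Tab r (c + ev k), ∀ W ∈ Tab r (c + ev j), ∀ i, col j W = col j U + ev i →
      mean ((Tab r (c + ev j)).filter fun y => col j y = col j W) fB ≤
        mean ((Tab r (c + ev k)).filter fun y => col j y = col j U) fA) :
    mean (Tab r (c + ev j)) fB ≤ mean (Tab r (c + ev k)) fA := by
  classical
  refine (cnet 0 fun e => r e.1).cover (v := .inr j) (s := .inr k) (by simpa using hjk.symm)
    (by simp [cnet]) (Sum.elim (-r) (c + ev k)) (col j) fA fB (cnet_fl _ _) ?_ nA nB ?_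
  · rw [← cnet_fl]
    congr 1
    funext v
    rcases v with x | x <;> simp [ev]
    ring
  · rintro W hW U hU ⟨i, j'⟩ h1 h2
    obtain rfl : j' = j := by simpa [cnet] using h1
    convert hyp W hW U hU i (funext fun y => ?_)
    simpa [col, ev] using h2 (y, j') rfl

theorem row_fiber {r : I → ℤ} {c : J → ℤ} (i : I) {W : I × J → ℤ} (hW : W ∈ Tab r c) :
    ((Tab r c).filter fun y => row i y = row i W) =
      (Tab (update r i 0) (c - row i W)).image (· + rowE i (row i W)) := by
  obtain ⟨w0, w1, -⟩ := mem_Tab.mp hW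
  ext X
  simp only [mem_filter, mem_image, mem_Tab]
  constructor
  · rintro ⟨⟨h0, h1, h2⟩, h3⟩
    refine ⟨X - rowE i (row i W), ⟨fun ⟨x, y⟩ => ?_, fun x => ?_, fun y => ?_⟩, by abel⟩
    · have := h0 (x, y)
      simp only [← h3, Pi.sub_apply, rowE, row]
      split_ifs with h
      · subst h; omega
      · omega
    · by_cases h : x = i
      · subst h; simp [← h3, rowE, row]
      · simp [rowE, h, h1]
    · simp [rowE, sum_sub_distrib, h2]
  · rintro ⟨Y, ⟨h0, h1, h2⟩, rfl⟩
    have z : ∀ y, Y (i, y) = 0 := fun y => by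
      have := le_row h0 i y
      have := h0 (i, y)
      have := h1 i
      rw [update_self] at this
      omega
    refine ⟨⟨fun ⟨x, y⟩ => ?_, fun x => ?_, fun y => ?_⟩, ?_⟩
    · have := h0 (x, y)
      have := w0 (i, y)
      simp only [Pi.add_apply, rowE, row]
      split_ifs <;> omega
    · by_cases h : x = i
      · subst h; simp [rowE, row, z, w1]
      · simpa [rowE, h] using h1 x
    · simp [rowE, sum_add_distrib, h2]
    · funext y; simp [row, rowE, z]

theorem pin_fiber {r : I → ℤ} {c : J → ℤ} {i : I} {J1 : Finset J} {a : J → ℤ} {W : I × J → ℤ}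
    (hW : W ∈ Pin i J1 a r c) : ((Pin i J1 a r c).filter fun y => row i y = row i W) =
      (Tab (update r i 0) (c - row i W)).image (· + rowE i (row i W)) := by
  rw [← row_fiber i (mem_Pin.mp hW).1]
  ext X
  simp only [mem_filter, mem_Pin]
  exact ⟨fun h => ⟨h.1.1, h.2⟩, fun h => ⟨⟨h.1, fun j hj =>
    (congrFun h.2 j).trans ((mem_Pin.mp hW).2 j hj)⟩, h.2⟩⟩

theorem col_fiber {r : I → ℤ} {c : J → ℤ} (j : J) {W : I × J → ℤ} (hW : W ∈ Tab r c) :
    ((Tab r c).filter fun y => col j y = col j W) =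
      (Tab (r - col j W) (update c j 0)).image (· + colE j (col j W)) := by
  obtain ⟨w0, -, w1⟩ := mem_Tab.mp hW
  ext X
  simp only [mem_filter, mem_image, mem_Tab]
  constructor
  · rintro ⟨⟨h0, h1, h2⟩, h3⟩
    refine ⟨X - colE j (col j W), ⟨fun ⟨x, y⟩ => ?_, fun x => ?_, fun y => ?_⟩, by abel⟩
    · have := h0 (x, y)
      simp only [← h3, Pi.sub_apply, colE, col]
      split_ifs with h
      · subst h; omega
      · omega
    · simp [colE, sum_sub_distrib, h1]
    · by_cases h : y = j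
      · subst h; simp [← h3, colE, col]
      · simp [colE, h, h2]
  · rintro ⟨Y, ⟨h0, h1, h2⟩, rfl⟩
    have z : ∀ x, Y (x, j) = 0 := fun x => by
      have := le_col h0 x j
      have := h0 (x, j)
      have := h2 j
      rw [update_self] at this
      omega
    refine ⟨⟨fun ⟨x, y⟩ => ?_, fun x => ?_, fun y => ?_⟩, ?_⟩
    · have := h0 (x, y)
      have := w0 (x, j)
      simp only [Pi.add_apply, colE, col]
      split_ifs <;> omega
    · simp [colE, sum_add_distrib, h1]
    · by_cases h : y = j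
      · subst h; simp [colE, col, z, w1]
      · simpa [colE, h] using h2 y
    · funext x; simp [col, colE, z]

theorem pin_quasi (i : I) (J1 : Finset J) (a : J → ℤ) (r : I → ℤ) (c : J → ℤ) (j : J) {x y z : ℤ}
    (h1 : x ≤ y) (h2 : y ≤ z) :
    min ((Pin i J1 a r c).filter fun X => X (i, j) = x).card
      ((Pin i J1 a r c).filter fun X => X (i, j) = z).card ≤
      ((Pin i J1 a r c).filter fun X => X (i, j) = y).card := by
  rw [← pnet_fl i J1 a (M := r) fun _ => le_rfl]
  exact Net.quasi _ (i, j) (by simp [pnet, rnet]) _ (z - x).toNat x y z (by omega) h1 h2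

end Vale.Agent.P328
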