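import Vale.Agent.P328.Tab

/-! Transport of a unit defect along a path of rows and columns. -/

namespace Vale.Agent.P328

open Finset Function

set_option linter.unusedSectionVars false

variable {I J : Type} [Fintype I] [Fintype J] [DecidableEq I] [DecidableEq J]

def rect (i i' : I) (j j' : J) : I × J → ℤ := ev (i, j) + ev (i', j') - ev (i, j') - ev (i', j)

/-- `δ` bounds the increments of `f` under the rectangle moves of size `2 ^ l`, `l < L` -/
def Grad (L : ℕ) (f δ : (I × J → ℤ) → ℝ) : Prop :=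
  (∀ X, 0 ≤ δ X) ∧ ∀ X i i' j j' l, l < L → i ≠ i' → j ≠ j' → 2 ^ l ≤ X (i, j') → 2 ^ l ≤ X (i', j) →
    |f (X + (2 ^ l : ℤ) • rect i i' j j') - f X| ≤ δ X

variable {L : ℕ} {f δ : (I × J → ℤ) → ℝ}

theorem Grad.shift (h : Grad L f δ) {Z : I × J → ℤ} (hZ : ∀ e, 0 ≤ Z e) :
    Grad L (fun X => f (X + Z)) fun X => δ (X + Z) :=
  ⟨fun _ => h.1 _, fun X i i' j j' l a b c d e => by
    have := h.2 (X + Z) i i' j j' l a b c (d.trans (le_add_of_nonneg_right (hZ _)))
      (e.trans (le_add_of_nonneg_right (hZ _)))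
    rwa [add_right_comm] at this⟩

theorem Grad.neg (h : Grad L f δ) : Grad L (fun X => -f X) δ :=
  ⟨h.1, fun X i i' j j' l a b c d e => by
    rw [neg_sub_neg, abs_sub_comm]; exact h.2 X i i' j j' l a b c d e⟩

theorem Grad.mono (h : Grad L f δ) {L' : ℕ} (hL : L' ≤ L) : Grad L' f δ :=
  ⟨h.1, fun X i i' j j' l a => h.2 X i i' j j' l (a.trans_le hL)⟩

theorem Grad.one (h : Grad 1 f δ) (X : I × J → ℤ) {i i' : I} {j j' : J} (a : i ≠ i') (b : j ≠ j')
    (c : 1 ≤ X (i, j')) (d : 1 ≤ X (i', j)) : |f (X + rect i i' j j') - f X| ≤ δ X := by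
  simpa using h.2 X i i' j j' 0 one_pos a b (by simpa) (by simpa)

/-- number of nonzero margins -/
def nz (r : I → ℤ) : ℕ := (univ.filter fun x => r x ≠ 0).card

theorem nz_mono {r r' : I → ℤ} (h : ∀ x, r x = 0 → r' x = 0) : nz r' ≤ nz r :=
  card_le_card fun x hx => by
    simp only [mem_filter, mem_univ, true_and] at *
    exact fun e => hx (h x e)

theorem nz_update {r : I → ℤ} {i : I} (h : r i ≠ 0) : nz (update r i 0) + 1 = nz r := by
  unfold nz
  rw [← card_erase_add_one (s := univ.filter fun x => r x ≠ 0) (a := i) (by simpa)]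
  congr 2
  ext x
  by_cases e : x = i <;> simp [e]

variable (I J) in
def Tst (p : ℕ) : Prop := ∀ (ρ : I → ℤ) (d : J → ℤ) (i : I) (k : J) (F δ : (I × J → ℤ) → ℝ),
  Grad 1 F δ → nz (ρ + ev i) ≤ p → (Tab ρ d).Nonempty →
  mean (Tab (ρ + ev i) (d + ev k)) (fun U => F U - p * Fintype.card (I × J) * δ U) ≤
    mean (Tab ρ d) fun W => F (W + ev (i, k))

theorem ev_nonneg {V : Type} [DecidableEq V] (v w : V) : 0 ≤ ev v w := by
  unfold ev; split_ifs <;> simp

theorem colE_nonneg {j : J} {x : I → ℤ} (h : ∀ i, 0 ≤ x i) (e : I × J) : 0 ≤ colE j x e := by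
  unfold colE; split_ifs <;> simp [h]

theorem rowE_nonneg {i : I} {x : J → ℤ} (h : ∀ i, 0 ≤ x i) (e : I × J) : 0 ≤ rowE i x e := by
  unfold rowE; split_ifs <;> simp [h]

theorem colE_ev (j : J) (x : I → ℤ) (i : I) : colE j (x + ev i) = colE j x + ev (i, j) := by
  funext ⟨a, b⟩
  simp only [colE, ev, Pi.add_apply, Prod.mk.injEq]
  split_ifs <;> simp_all

theorem rowE_ev (i : I) (y : J → ℤ) (j : J) : rowE i (y + ev j) = rowE i y + ev (i, j) := by
  funext ⟨a, b⟩
  simp only [rowE, ev, Pi.add_apply, Prod.mk.injEq]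
  split_ifs <;> simp_all

theorem t_col {p : ℕ} (hT : Tst I J p) {ρ : I → ℤ} {d : J → ℤ} {j k : J} (hjk : j ≠ k)
    {GA δ GB : (I × J → ℤ) → ℝ} (hG : Grad 1 GA δ) (hp : nz ρ ≤ p)
    (nA : (Tab ρ (d + ev k)).Nonempty) (nB : (Tab ρ (d + ev j)).Nonempty)
    (hyp : ∀ W ∈ Tab ρ (d + ev j), ∀ i, 1 ≤ W (i, j) → GA (W - ev (i, j) + ev (i, k)) ≤ GB W) :
    mean (Tab ρ (d + ev k)) (fun U => GA U - p * Fintype.card (I × J) * δ U) ≤
      mean (Tab ρ (d + ev j)) GB := by
  rw [← neg_le_neg_iff, ← mean_neg, ← mean_neg]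
  refine cov_col ρ d hjk _ _ nA nB fun U hU W hW i hi => ?_
  have hf := col_fiber j hW
  rw [mean_neg, mean_neg, neg_le_neg_iff, col_fiber j hU, hf, mean_image _ (add_left_injective _),
    mean_image _ (add_left_injective _)]
  obtain ⟨u0, u1, -⟩ := mem_Tab.mp hU
  have := hT (ρ - col j W) (update (d + ev j) j 0) i k _ _
    (hG.shift (colE_nonneg (j := j) (x := col j U) fun i => u0 _))
    (le_trans (nz_mono fun x hx => by
      have := le_row u0 x j
      have := u0 (x, j)
      have := u1 x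
      simp only [hi, Pi.add_apply, Pi.sub_apply, col] at *
      omega) hp)
    (by
      have : W ∈ (Tab ρ (d + ev j)).filter fun y => col j y = col j W := mem_filter.mpr ⟨hW, rfl⟩
      rw [hf] at this
      exact Nonempty.of_image ⟨W, this⟩)
  rw [show ρ - col j W + ev i = ρ - col j U by rw [hi]; abel,
    show update (d + ev j) j 0 + ev k = update (d + ev k) j 0 by
      funext y; by_cases h : y = j <;> simp [h, ev, hjk]] at this
  refine this.trans (mean_mono fun Y hY => ?_)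
  have m : Y + colE j (col j W) ∈ (Tab ρ (d + ev j)).filter fun y => col j y = col j W := by
    rw [hf]; exact mem_image_of_mem _ hY
  have := hyp _ (mem_filter.mp m).1 i (by
    have := (mem_Tab.mp hY).1 (i, j)
    have := u0 (i, j)
    simp only [hi, Pi.add_apply, colE, col, ev, if_true]
    omega)
  rwa [show Y + colE j (col j W) - ev (i, j) + ev (i, k) = Y + ev (i, k) + colE j (col j U) by
    rw [hi, colE_ev]; abel] at this

theorem t_row {p : ℕ} (hT : Tst I J p) {ρ : I → ℤ} {d : J → ℤ} {i : I} {k : J} {J1 : Finset J}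
    {a : J → ℤ} {F δ : (I × J → ℤ) → ℝ} (hG : Grad 1 F δ) (hp : nz (update ρ i 0) ≤ p)
    (nA : (Pin i J1 a ρ d).Nonempty) (nB : (Pin i J1 a (ρ + ev i) (d + ev k)).Nonempty) :
    mean (Pin i J1 a (ρ + ev i) (d + ev k)) (fun U => F U - p * Fintype.card (I × J) * δ U) ≤
      mean (Pin i J1 a ρ d) fun W => F (W + ev (i, k)) + δ (W + ev (i, k)) := by
  refine cov_row i J1 a ρ d k _ _ nA nB fun W hW U hU j hj => ?_
  have f1 := pin_fiber hW
  have f2 := pin_fiber hU
  have n1 : (Tab (update ρ i 0) (d - row i W)).Nonempty :=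
    Nonempty.of_image ⟨W, by rw [← f1]; exact mem_filter.mpr ⟨hW, rfl⟩⟩
  have n2 : (Tab (update (ρ + ev i) i 0) (d + ev k - row i U)).Nonempty :=
    Nonempty.of_image ⟨U, by rw [← f2]; exact mem_filter.mpr ⟨hU, rfl⟩⟩
  have e : update (ρ + ev i) i 0 = update ρ i 0 := by
    funext y; by_cases h : y = i <;> simp [h, ev]
  rw [f1, f2, mean_image _ (add_left_injective _), mean_image _ (add_left_injective _)]
  rw [e, hj] at n2 ⊢
  have w0 := (mem_Tab.mp (mem_Pin.mp hW).1).1
  by_cases hjk : j = k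
  · subst hjk
    rw [show d + ev j - (row i W + ev j) = d - row i W by abel]
    refine mean_mono fun Y _ => ?_
    rw [rowE_ev, ← add_assoc]
    have := hG.1 (Y + rowE i (row i W) + ev (i, j))
    have : 0 ≤ (p * Fintype.card (I × J) : ℝ) * δ (Y + rowE i (row i W) + ev (i, j)) := by positivity
    linarith
  rw [show d + ev k - (row i W + ev j) = d - row i W - ev j + ev k by abel] at n2 ⊢
  rw [show d - row i W = d - row i W - ev j + ev j by abel] at n1
  conv_rhs => rw [show d - row i W = d - row i W - ev j + ev j by abel]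
  refine t_col hT hjk (hG.shift (rowE_nonneg fun y => add_nonneg (w0 _) (ev_nonneg _ _))) hp n2 n1
    fun Y hY i' h => ?_
  obtain ⟨y0, y1, -⟩ := mem_Tab.mp hY
  have hi : i ≠ i' := by
    rintro rfl
    have := le_row y0 i j
    rw [y1, update_self] at this
    omega
  have := hG.one (Y + rowE i (row i W) + ev (i, k)) hi hjk (by
      have := y0 (i, k)
      have := w0 (i, k)
      simp only [Pi.add_apply, rowE, row, ev, if_true]
      omega) (by
      have := rowE_nonneg (i := i) (x := row i W) (fun y => w0 _) (i', j)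
      have := ev_nonneg (i, k) (i', j)
      simp only [Pi.add_apply]
      omega)
  rw [show Y + rowE i (row i W) + ev (i, k) + rect i i' j k =
    Y - ev (i', j) + ev (i', k) + rowE i (row i W + ev j) by rw [rowE_ev, rect]; abel] at this
  linarith [(abs_le.mp this).2]

theorem sum_ev_row (i : I) (k : J) (x : I) : ∑ y, ev (i, k) (x, y) = ev i x := by
  by_cases h : x = i <;> simp [ev, h]

theorem sum_ev_col (i : I) (k : J) (y : J) : ∑ x, ev (i, k) (x, y) = ev k y := by
  by_cases h : y = k <;> simp [ev, h]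

theorem add_ev_mem {ρ : I → ℤ} {d : J → ℤ} (i : I) (k : J) {W : I × J → ℤ} (h : W ∈ Tab ρ d) :
    W + ev (i, k) ∈ Tab (ρ + ev i) (d + ev k) := by
  obtain ⟨h0, h1, h2⟩ := mem_Tab.mp h
  exact mem_Tab.mpr ⟨fun e => add_nonneg (h0 e) (ev_nonneg _ _),
    fun x => by simp [sum_add_distrib, sum_ev_row, h1], fun y => by simp [sum_add_distrib, sum_ev_col, h2]⟩

theorem stable {ρ : I → ℤ} {d : J → ℤ} (i : I) (k : J) (h : (Tab ρ d).Nonempty) :
    (Tab (ρ + ev i) (d + ev k)).card ≤ Fintype.card (I × J) * (Tab ρ d).card := by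
  obtain ⟨W, hW⟩ := h
  obtain ⟨w0, w1, w2⟩ := mem_Tab.mp hW
  refine (card_le_card (t := univ.biUnion fun e : I × J =>
    (Tab ρ d).image (· + (ev (i, e.2) + ev (e.1, k) - ev e))) fun U hU => ?_).trans
    (card_biUnion_le_card_mul _ _ _ fun _ _ => card_image_le)
  obtain ⟨u0, u1, u2⟩ := mem_Tab.mp hU
  obtain ⟨a, b, hab⟩ : ∃ a b, ∀ e, 0 ≤ (U - (ev (i, b) + ev (a, k) - ev (a, b)) : I × J → ℤ) e := by
    by_cases c : 1 ≤ U (i, k)
    · refine ⟨i, k, fun e => ?_⟩
      have := u0 e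
      simp only [Pi.sub_apply, Pi.add_apply, ev]
      split_ifs with h
      · subst h; omega
      · omega
    obtain ⟨b, -, hb⟩ : ∃ b ∈ univ, 0 < U (i, b) := exists_lt_of_sum_lt (f := fun _ => 0) (by
      have : 0 ≤ ∑ j, W (i, j) := sum_nonneg fun _ _ => w0 _
      rw [u1]; simp [ev]; rw [w1] at this; omega)
    obtain ⟨a, -, ha⟩ : ∃ a ∈ univ, 0 < U (a, k) := exists_lt_of_sum_lt (f := fun _ => 0) (by
      have : 0 ≤ ∑ j, W (j, k) := sum_nonneg fun _ _ => w0 _
      rw [u2]; simp [ev]; rw [w2] at this; omega)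
    have : b ≠ k := by rintro rfl; omega
    refine ⟨a, b, fun e => ?_⟩
    have h1 := ev_nonneg (a, b) e
    have h2 : ev (i, b) e + ev (a, k) e ≤ U e := by
      have := u0 e
      simp only [ev]
      split_ifs <;> simp_all <;> omega
    simp only [Pi.sub_apply, Pi.add_apply]
    omega
  refine mem_biUnion.mpr ⟨(a, b), mem_univ _, mem_image.mpr ⟨_, mem_Tab.mpr ⟨hab, fun x => ?_,
    fun y => ?_⟩, sub_add_cancel _ _⟩⟩
  · simp [sum_add_distrib, sum_sub_distrib, sum_ev_row, u1]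
  · simp [sum_add_distrib, sum_sub_distrib, sum_ev_col, u2]

theorem tst (p : ℕ) : Tst I J p := by
  induction p with
  | zero =>
    rintro ρ d i k F δ - h ⟨W, hW⟩
    obtain ⟨w0, w1, -⟩ := mem_Tab.mp hW
    have : 0 ≤ ∑ j, W (i, j) := sum_nonneg fun _ _ => w0 _
    have := nz_update (r := ρ + ev i) (i := i) (by simp [ev]; rw [w1] at this; omega)
    omega
  | succ p ih =>
    rintro ρ d i k F δ hG h ⟨W, hW⟩
    obtain ⟨w0, w1, -⟩ := mem_Tab.mp hW
    have : 0 ≤ ∑ j, W (i, j) := sum_nonneg fun _ _ => w0 _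
    have h1 := nz_update (r := ρ + ev i) (i := i) (by simp [ev]; rw [w1] at this; omega)
    have e : update (ρ + ev i) i 0 = update ρ i 0 := by
      funext y; by_cases h : y = i <;> simp [h, ev]
    have e0 : ∀ r c, Pin i (∅ : Finset J) 0 r c = Tab r c := fun r c => by simp [Pin]
    have := t_row ih (ρ := ρ) (d := d) (i := i) (k := k) (J1 := ∅) (a := 0) hG (by rw [← e]; omega)
      (e0 _ _ ▸ ⟨W, hW⟩) (e0 _ _ ▸ ⟨_, add_ev_mem i k hW⟩)
    rw [e0, e0, mean_add] at this
    have h2 : mean (Tab ρ d) (fun W => δ (W + ev (i, k))) ≤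
        mean (Tab (ρ + ev i) (d + ev k)) fun U => Fintype.card (I × J) * δ U := by
      have s1 : ∑ W ∈ Tab ρ d, δ (W + ev (i, k)) ≤ ∑ U ∈ Tab (ρ + ev i) (d + ev k), δ U := by
        rw [← sum_image (g := (· + ev (i, k))) (f := δ) (add_left_injective _).injOn]
        exact sum_le_sum_of_subset_of_nonneg (image_subset_iff.mpr fun x hx => add_ev_mem i k hx)
          fun _ _ _ => hG.1 _
      have s2 : ((Tab (ρ + ev i) (d + ev k)).card : ℝ) ≤ Fintype.card (I × J) * (Tab ρ d).card := by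
        exact_mod_cast stable i k ⟨W, hW⟩
      rw [mean, mean, ← mul_sum, div_le_div_iff₀ (by exact_mod_cast card_pos.mpr ⟨W, hW⟩)
        (by exact_mod_cast card_pos.mpr ⟨_, add_ev_mem i k hW⟩)]
      have s3 : 0 ≤ ∑ U ∈ Tab (ρ + ev i) (d + ev k), δ U := sum_nonneg fun _ _ => hG.1 _
      calc _ ≤ (∑ U ∈ Tab (ρ + ev i) (d + ev k), δ U) * (Fintype.card (I × J) * (Tab ρ d).card) :=
            mul_le_mul s1 s2 (Nat.cast_nonneg _) s3
        _ = _ := by ring
    have h3 := mean_add (Tab (ρ + ev i) (d + ev k))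
      (fun U => F U - (p + 1 : ℕ) * Fintype.card (I × J) * δ U) fun U => Fintype.card (I × J) * δ U
    rw [show (fun U => F U - (p + 1 : ℕ) * Fintype.card (I × J) * δ U + Fintype.card (I × J) * δ U) =
      fun U => F U - p * Fintype.card (I × J) * δ U by funext U; push_cast; ring] at h3
    linarith

end Vale.Agent.P328
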